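import Crest.Agent.R330.IG

/-! # Row 330, FA/A (statements frozen; see `R330/Blueprint.lean`) -/

set_option autoImplicit false
set_option linter.unusedSectionVars false

noncomputable section

open MeasureTheory Filter Topology
open scoped InnerProductSpace ContDiff Matrix

namespace Crest.Agent.R330

variable {Y Θ F : Type} [NormedAddCommGroup Y] [InnerProductSpace ℝ Y] [FiniteDimensional ℝ Y]
  [MeasurableSpace Y] [BorelSpace Y]
  [NormedAddCommGroup Θ] [InnerProductSpace ℝ Θ] [FiniteDimensional ℝ Θ]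
  [NormedAddCommGroup F] [InnerProductSpace ℂ F] [FiniteDimensional ℂ F]

theorem Core.memLp {ψ : Y → F} (h : Core ψ) : MemLp ψ 2 volume := h.1.continuous.memLp_of_hasCompactSupport h.2

theorem DS.hs {𝒮 : Syms Y F} {ψ : Y → F} (h : DS 𝒮 ψ) : HS 𝒮 ψ := ⟨h.1.memLp, fun p hp => Eventually.of_forall (h.2 p hp)⟩

theorem DS.add {𝒮 : Syms Y F} {φ ψ : Y → F} (h : DS 𝒮 φ) (h' : DS 𝒮 ψ) : DS 𝒮 (φ + ψ) := 
  ⟨⟨h.1.1.add h'.1.1, h.1.2.add h'.1.2⟩, fun p hp x => by simp [h.2 p hp x, h'.2 p hp x]⟩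

theorem DS.csmul {𝒮 : Syms Y F} {ψ : Y → F} (h : DS 𝒮 ψ) (a : ℂ) : DS 𝒮 (a • ψ) := 
  ⟨⟨h.1.1.const_smul a, h.1.2.smul_left (f := fun _ => a)⟩, fun p hp x => by simp [h.2 p hp x]⟩

theorem DS.smul {𝒮 : Syms Y F} {ψ : Y → F} (h : DS 𝒮 ψ) {χ : Y → ℝ} (hχ : ContDiff ℝ ∞ χ)
    (hi : InvS 𝒮 χ) : DS 𝒮 fun x => (χ x : ℂ) • ψ x := 
  ⟨⟨(Complex.ofRealCLM.contDiff.comp hχ).smul h.1.1, h.1.2.smul_left (f := fun x => (χ x : ℂ))⟩,
    fun p hp x => by simp only [h.2 p hp x, hi p hp x, map_smul]⟩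

theorem faA_sq {ψ : Y → F} (h : MemLp ψ 2 volume) : ∫ x, ‖ψ x‖ ^ 2 = (eLpNorm ψ 2 volume).toReal ^ 2 := by
  rw [toReal_eLpNorm h.1, lpNorm_eq_integral_norm_rpow_toReal (by norm_num) (by norm_num) h.1]
  have h0 : 0 ≤ ∫ x, ‖ψ x‖ ^ 2 := integral_nonneg fun _ => by positivity
  simp only [ENNReal.toReal_ofNat, Real.rpow_ofNat]
  rw [← Real.rpow_natCast, ← Real.rpow_mul h0]
  norm_num

/-- `L²` convergence in terms of real integrals. -/
theorem tendsto_eLpNorm_iff {φ : ℕ → Y → F} (h : ∀ n, MemLp (φ n) 2 volume) :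
    Tendsto (fun n => eLpNorm (φ n) 2 volume) atTop (𝓝 0) ↔
      Tendsto (fun n => ∫ x, ‖φ n x‖ ^ 2) atTop (𝓝 0) := by
  have e : ∀ n, ∫ x, ‖φ n x‖ ^ 2 = (eLpNorm (φ n) 2 volume).toReal ^ 2 := fun n => faA_sq (h n)
  simp only [e]
  rw [← ENNReal.tendsto_toReal_iff (fun n => (h n).2.ne) ENNReal.zero_ne_top, ENNReal.toReal_zero]
  refine ⟨fun t => by simpa using t.pow 2, fun t => ?_⟩
  simpa [Real.sqrt_sq ENNReal.toReal_nonneg] using t.sqrt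

theorem faA_mp (R : Y →L[ℝ] Y) (h : ∀ x, ‖R x‖ = ‖x‖) : MeasurePreserving R volume volume :=
  ((⟨R.toLinearMap, h⟩ : Y →ₗᵢ[ℝ] Y).toLinearIsometryEquiv rfl).measurePreserving

/-- `L²` limits of symmetric functions are symmetric. -/
theorem HS.of_tendsto {𝒮 : Syms Y F} (h𝒮 : SymOK 𝒮) {φ : ℕ → Y → F} (hφ : ∀ n, HS 𝒮 (φ n))
    {Ψ : Y → F} (hΨ : MemLp Ψ 2 volume)
    (h : Tendsto (fun n => eLpNorm (φ n - Ψ) 2 volume) atTop (𝓝 0)) : HS 𝒮 Ψ := by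
  refine ⟨hΨ, fun p hp => ?_⟩
  have hR := faA_mp p.1 (h𝒮 p hp).1
  have m1 : MemLp (fun x => Ψ (p.1 x)) 2 volume := hΨ.comp_measurePreserving hR
  have m2 : MemLp (fun x => p.2 (Ψ x)) 2 volume := p.2.comp_memLp' hΨ
  have key : ∀ n, eLpNorm ((fun x => Ψ (p.1 x)) - fun x => p.2 (Ψ x)) 2 volume ≤
      eLpNorm (φ n - Ψ) 2 volume + eLpNorm (φ n - Ψ) 2 volume := fun n => by
    have m3 := (hφ n).1.sub hΨ
    have e : ((fun x => Ψ (p.1 x)) - fun x => p.2 (Ψ x)) =ᵐ[volume]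
        (fun x => p.2 ((φ n - Ψ) x)) - (φ n - Ψ) ∘ p.1 := by
      filter_upwards [(hφ n).2 p hp] with x hx
      simp only [Pi.sub_apply, Function.comp, map_sub, hx]
      abel
    rw [eLpNorm_congr_ae e]
    refine (eLpNorm_sub_le (p.2.comp_memLp' m3).1 (m3.comp_measurePreserving hR).1 one_le_two).trans_eq ?_
    rw [eLpNorm_comp_measurePreserving m3.1 hR]
    congr 1
    exact eLpNorm_congr_norm_ae (Eventually.of_forall fun x => (h𝒮 p hp).2 _)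
  have h0 := ge_of_tendsto' (h.add h) key
  rw [add_zero, nonpos_iff_eq_zero, eLpNorm_eq_zero_iff (m1.sub m2).1 two_ne_zero] at h0
  filter_upwards [h0] with x hx using sub_eq_zero.1 hx

end Crest.Agent.R330

end
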