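import Crest.Agent.R330.FA.BAux

/-! # Row 330, FA/B (statements frozen; see `R330/Blueprint.lean`) -/

set_option autoImplicit false
set_option linter.unusedSectionVars false

noncomputable section

open MeasureTheory Filter Topology
open scoped InnerProductSpace ContDiff Matrix ENNReal

namespace Crest.Agent.R330

variable {Y Θ F : Type} [NormedAddCommGroup Y] [InnerProductSpace ℝ Y] [FiniteDimensional ℝ Y]
  [MeasurableSpace Y] [BorelSpace Y]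
  [NormedAddCommGroup Θ] [InnerProductSpace ℝ Θ] [FiniteDimensional ℝ Θ]
  [NormedAddCommGroup F] [InnerProductSpace ℂ F] [FiniteDimensional ℂ F]

theorem fab_ds_cut {𝒮 : Syms Y F} (h𝒮 : SymOK 𝒮) {u : Y → F} (hu : ContDiff ℝ ∞ u)
    (hs : ∀ p ∈ 𝒮, ∀ x, u (p.1 x) = p.2 (u x)) {χ : Y → ℝ} (hχ : ContDiff ℝ ∞ χ)
    (hc : HasCompactSupport χ) (hr : ∀ x y, ‖x‖ = ‖y‖ → χ x = χ y) :
    DS 𝒮 fun x => (χ x : ℂ) • u x := by
  refine ⟨⟨(Complex.ofRealCLM.contDiff.comp hχ).smul hu, HasCompactSupport.intro hc.isCompact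
    fun x hx => by simp [image_eq_zero_of_notMem_tsupport hx]⟩, fun p hp x => ?_⟩
  beta_reduce
  rw [hs p hp, map_smul, hr _ x ((h𝒮 p hp).1 x)]

/-- The mollified equation `D J Ψ + J (W Ψ) = J h`. -/
theorem fab_eqn (C : Cl Θ F) (c : Y →ₗ[ℝ] Θ) {w : Y → Θ} (hw : ContDiff ℝ ∞ w)
    {𝒮₀ : Syms Y F} (h₀ : SymOK 𝒮₀) (hC : Compat C c w 𝒮₀) {Ψ h : Y → F}
    (hΨ₀ : HS 𝒮₀ Ψ) (hh : HS 𝒮₀ h)
    (heq : ∀ φ, DS 𝒮₀ φ → ∫ x, ⟪Ψ x, dirac C c w φ x⟫_ℂ = ∫ x, ⟪h x, φ x⟫_ℂ)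
    {δ : ℝ} {ρ : Y → ℝ} (hρ : FabM δ ρ) (x : Y) :
    dirac C c (fun _ => 0) (fabJ ρ Ψ) x + fabJ ρ (fun y => C.θ (w y) (Ψ y)) x - fabJ ρ h x = 0 := by
  have : FiniteDimensional ℝ F := Module.Finite.trans ℂ F
  have hW : Continuous fun y => C.θ (w y) := C.θ.continuous_of_finiteDimensional.comp hw.continuous
  have lΨ := hΨ₀.1.locallyIntegrable one_le_two
  have lh := hh.1.locallyIntegrable one_le_two
  have lW := fab_locInt hW lΨ
  have sΨ := hρ.smooth lΨ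
  have sD : ContDiff ℝ ∞ (dirac C c (fun _ => 0) (fabJ ρ Ψ)) := by
    refine ContDiff.add (ContDiff.sum fun i _ => ContDiff.const_smul _ ?_) ?_
    · exact ((C.θ _).restrictScalars ℝ).contDiff.comp
        ((sΨ.fderiv_right (m := ∞) le_rfl).clm_apply contDiff_const)
    · exact ((C.θ _).restrictScalars ℝ).contDiff.comp sΨ
  set u : Y → F := fun x => dirac C c (fun _ => 0) (fabJ ρ Ψ) x +
    fabJ ρ (fun y => C.θ (w y) (Ψ y)) x - fabJ ρ h x with hu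
  have su : ContDiff ℝ ∞ u := (sD.add (hρ.smooth lW)).sub (hρ.smooth lh)
  have hs : ∀ p ∈ 𝒮₀, ∀ x, u (p.1 x) = p.2 (u x) := fun p hp x => by
    have hR := (h₀ p hp).1
    simp only [hu, map_add, map_sub]
    rw [dirac_equivariant C c (fun _ => 0) p.1 p.2 hR (hC p hp).1 (fun _ => by simp)
      (sΨ.differentiable (by simp)) (hρ.sym lΨ hR (hΨ₀.2 p hp)), hρ.sym lh hR (hh.2 p hp),
      hρ.sym lW hR (U := p.2)]
    filter_upwards [hΨ₀.2 p hp] with y hy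
    rw [hy]
    exact (congrArg (fun L : F →L[ℂ] F => L (Ψ y)) ((hC p hp).2 y)).symm
  have hsa : ∀ v (x y : F), ⟪C.θ v x, y⟫_ℂ = ⟪x, C.θ v y⟫_ℂ := fun v x y => by
    rw [← ContinuousLinearMap.adjoint_inner_right, (C.sa v).adjoint_eq]
  have hint : ∀ {f φ : Y → F}, LocallyIntegrable f volume → Continuous φ → HasCompactSupport φ →
      Integrable fun x => ⟪f x, φ x⟫_ℂ := fun {f φ} hf hφ hc => by
    have hn : LocallyIntegrable (fun x => ‖f x‖) volume :=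
      hf.mono hf.aestronglyMeasurable.norm (Eventually.of_forall fun x => by simp)
    exact (hn.integrable_smul_right_of_hasCompactSupport hφ.norm hc.norm).mono'
      (hf.aestronglyMeasurable.inner hφ.aestronglyMeasurable)
      (Eventually.of_forall fun x => norm_inner_le_norm _ _)
  have key : ∀ φ, DS 𝒮₀ φ → ∫ x, ⟪u x, φ x⟫_ℂ = 0 := fun φ hφ => by
    have cφ := hφ.1.1.continuous
    have hJ := hρ.core hφ.1
    have h1 := heq (fabJ ρ φ) ⟨hJ, fun p hp => hρ.sym cφ.locallyIntegrable (h₀ p hp).1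
      (Eventually.of_forall (hφ.2 p hp))⟩
    have hD := hφ.1.dirac C c (w := fun _ => 0) contDiff_const
    have e : ∀ x, ⟪Ψ x, dirac C c w (fabJ ρ φ) x⟫_ℂ =
        ⟪Ψ x, fabJ ρ (dirac C c (fun _ => 0) φ) x⟫_ℂ + ⟪C.θ (w x) (Ψ x), fabJ ρ φ x⟫_ℂ := fun x => by
      rw [← hρ.dirac C c hφ.1, hsa, ← inner_add_right, ← dirac_add_pot]
      simp only [zero_add]
    simp only [e] at h1
    rw [integral_add (hint lΨ (hρ.core hD).1.continuous (hρ.core hD).2)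
      (hint lW hJ.1.continuous hJ.2), hρ.adj lΨ hD.1.continuous hD.2, hρ.adj lW cφ hφ.1.2,
      hρ.adj lh cφ hφ.1.2, ← dirac_symm C c continuous_const (sΨ.of_le (by simp))
        (hφ.1.1.of_le (by simp)) (Or.inr hφ.1.2)] at h1
    have i1 := hint sD.continuous.locallyIntegrable cφ hφ.1.2
    have i2 := hint (hρ.smooth lW).continuous.locallyIntegrable cφ hφ.1.2
    have i3 := hint (hρ.smooth lh).continuous.locallyIntegrable cφ hφ.1.2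
    simp only [hu, inner_sub_left, inner_add_left]
    rw [integral_sub (by exact i1.add i2) i3, integral_add i1 i2, h1, sub_self]
  obtain ⟨b, -, hb⟩ := exists_radial_cutoff (Y := Y)
  obtain ⟨χ, hχ, hc, h01, h1, -, -, -, hr⟩ := hb (‖x‖ + 1) (by positivity)
  have h2 := key _ (fab_ds_cut h₀ su hs hχ hc hr)
  have e : ∀ y, ⟪u y, (χ y : ℂ) • u y⟫_ℂ = ((χ y * ‖u y‖ ^ 2 : ℝ) : ℂ) := fun y => by
    rw [inner_smul_right, inner_self_eq_norm_sq_to_K]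
    simp
  simp only [e] at h2
  rw [integral_complex_ofReal, Complex.ofReal_eq_zero] at h2
  by_contra hx
  refine (Continuous.integral_pos_of_hasCompactSupport_nonneg_nonzero (x := x)
    (hχ.continuous.mul (su.continuous.norm.pow 2)) hc.mul_right
    (fun y => mul_nonneg (h01 y).1 (sq_nonneg _)) ?_).ne' h2
  change χ x * ‖u x‖ ^ 2 ≠ 0
  rw [h1 x (by linarith), one_mul]
  exact pow_ne_zero 2 (norm_ne_zero_iff.2 hx)

theorem fab_approx (C : Cl Θ F) (c : Y →ₗ[ℝ] Θ) {w : Y → Θ} (hw : ContDiff ℝ ∞ w)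
    {𝒮₀ 𝒮₁ : Syms Y F} (h₀ : SymOK 𝒮₀) (h₁ : SymOK 𝒮₁) (hC : Compat C c w 𝒮₀) {Ψ h : Y → F}
    (hΨ₀ : HS 𝒮₀ Ψ) (hΨ₁ : HS 𝒮₁ Ψ) (hh : HS 𝒮₀ h)
    (heq : ∀ φ, DS 𝒮₀ φ → ∫ x, ⟪Ψ x, dirac C c w φ x⟫_ℂ = ∫ x, ⟪h x, φ x⟫_ℂ)
    {ε : ℝ≥0∞} (hε : 0 < ε) :
    ∃ φ : Y → F, DS (𝒮₀ ∪ 𝒮₁) φ ∧ eLpNorm (φ - Ψ) 2 volume ≤ ε + ε ∧
      eLpNorm (dirac C c w φ - h) 2 volume ≤ ε + ε + ε + ε := by
  have : FiniteDimensional ℝ F := Module.Finite.trans ℂ F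
  have hW : Continuous fun y => C.θ (w y) := C.θ.continuous_of_finiteDimensional.comp hw.continuous
  have lΨ := hΨ₀.1.locallyIntegrable one_le_two
  have lh := hh.1.locallyIntegrable one_le_two
  obtain ⟨b, hb0, hb⟩ := exists_radial_cutoff (Y := Y)
  obtain ⟨η, hη, hηε⟩ := ENNReal.exists_nnreal_pos_mul_lt hΨ₀.1.2.ne hε.ne'
  set K := ‖LinearMap.toContinuousLinearMap c‖ with hK
  have hη' : (0 : ℝ) < η := hη
  obtain ⟨r, ⟨⟨t1, t2⟩, hr0⟩, hr1⟩ := ((((fab_tail hΨ₀.1 hε).and (fab_tail hh.1 hε)).and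
    (eventually_gt_atTop 0)).and (eventually_ge_atTop (K * b / η))).exists
  obtain ⟨χ, hχ, hc, h01, h1, h0, hg, -, hr⟩ := hb r hr0
  obtain ⟨δ, ⟨⟨c1, c2⟩, c3⟩, hδ⟩ := ((((fab_conv hΨ₀.1 hε).and (fab_conv hh.1 hε)).and
    (fab_fried hW hΨ₀.1 hχ.continuous h01 h0 hε)).and self_mem_nhdsWithin).exists
  obtain ⟨ρ, hρ⟩ : ∃ ρ : Y → ℝ, FabM δ ρ := gh_mollifier hδ
  have sΨ := hρ.smooth lΨ
  have cχ : Continuous fun x => (χ x : ℂ) := Complex.continuous_ofReal.comp hχ.continuous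
  have hcut : ∀ g : Y → F, eLpNorm (fun x => (χ x : ℂ) • g x) 2 volume ≤ eLpNorm g 2 volume :=
    fun g => eLpNorm_mono fun x => by
      rw [norm_smul, Complex.norm_real, Real.norm_of_nonneg (h01 x).1]
      exact mul_le_of_le_one_left (norm_nonneg _) (h01 x).2
  have hap : ∀ g : Y → F, MemLp g 2 volume → eLpNorm (fabJ ρ g - g) 2 volume ≤ ε →
      eLpNorm (fun x => (χ x : ℂ) • g x - g x) 2 volume ≤ ε →
      eLpNorm (fun x => (χ x : ℂ) • fabJ ρ g x - g x) 2 volume ≤ ε + ε := fun g hg a1 a2 => by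
    have e : (fun x => (χ x : ℂ) • fabJ ρ g x - g x) =
        (fun x => (χ x : ℂ) • (fabJ ρ g - g) x) + fun x => (χ x : ℂ) • g x - g x := by
      funext x
      simp [smul_sub]
    rw [e]
    refine (eLpNorm_add_le (cχ.aestronglyMeasurable.smul
      ((hρ.smooth (hg.locallyIntegrable one_le_two)).continuous.aestronglyMeasurable.sub hg.1))
      ((cχ.aestronglyMeasurable.smul hg.1).sub hg.1) one_le_two).trans
      (add_le_add ((hcut _).trans a1) a2)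
  refine ⟨fun x => (χ x : ℂ) • fabJ ρ Ψ x, fab_ds_cut (𝒮 := 𝒮₀ ∪ 𝒮₁)
    (fun p hp => hp.elim (h₀ p) (h₁ p)) sΨ (fun p hp => hp.elim
      (fun hp => hρ.sym lΨ (h₀ p hp).1 (hΨ₀.2 p hp)) fun hp => hρ.sym lΨ (h₁ p hp).1 (hΨ₁.2 p hp))
    hχ hc hr, hap Ψ hΨ₀.1 (c1 ρ hρ) (t1 χ h01 h1), ?_⟩
  have e : dirac C c w (fun x => (χ x : ℂ) • fabJ ρ Ψ x) - h =
      ((fun x => (χ x : ℂ) • fabJ ρ h x - h x) + fun x => (χ x : ℂ) •
        (C.θ (w x) (fabJ ρ Ψ x) - fabJ ρ (fun y => C.θ (w y) (Ψ y)) x)) +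
        fun x => -(Complex.I • C.θ (c (gradient χ x)) (fabJ ρ Ψ x)) := by
    funext x
    have e1 := fab_eqn C c hw h₀ hC hΨ₀ hh heq hρ x
    have e2 := dirac_add_pot C c (fun _ => 0) w (fabJ ρ Ψ) x
    simp only [zero_add] at e2
    rw [Pi.sub_apply, dirac_smul C c w (hχ.differentiable (by simp) x) (sΨ.differentiable (by simp) x),
      e2]
    simp only [Pi.add_apply]
    rw [← sub_eq_zero.1 e1]
    simp only [smul_add, smul_sub]
    abel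
  have cg : Continuous (gradient χ) := (InnerProductSpace.toDual ℝ Y).symm.continuous.comp
    (hχ.continuous_fderiv (by simp))
  have m1 : AEStronglyMeasurable (fun x => (χ x : ℂ) • fabJ ρ h x - h x) volume :=
    (cχ.smul (hρ.smooth lh).continuous).aestronglyMeasurable.sub hh.1.1
  have m2 : AEStronglyMeasurable (fun x => (χ x : ℂ) •
      (C.θ (w x) (fabJ ρ Ψ x) - fabJ ρ (fun y => C.θ (w y) (Ψ y)) x)) volume :=
    (cχ.smul ((hW.clm_apply sΨ.continuous).sub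
      (hρ.smooth (fab_locInt hW lΨ)).continuous)).aestronglyMeasurable
  have m3 : AEStronglyMeasurable
      (fun x => -(Complex.I • C.θ (c (gradient χ x)) (fabJ ρ Ψ x))) volume :=
    (((C.θ.continuous_of_finiteDimensional.comp (c.continuous_of_finiteDimensional.comp cg)).clm_apply
      sΨ.continuous).const_smul Complex.I).neg.aestronglyMeasurable
  rw [e]
  refine (eLpNorm_add_le (m1.add m2) m3 one_le_two).trans (add_le_add
    ((eLpNorm_add_le m1 m2 one_le_two).trans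
      (add_le_add (hap h hh.1 (c2 ρ hρ) (t2 χ h01 h1)) (c3 ρ hρ))) ?_)
  refine le_trans ?_ ((mul_le_mul_right (hρ.young hΨ₀.1.1) _).trans hηε.le)
  rw [← ENNReal.ofReal_coe_nnreal]
  refine eLpNorm_le_mul_eLpNorm_of_ae_le_mul (Eventually.of_forall fun x => ?_) _
  rw [norm_neg, norm_smul, Complex.norm_I, one_mul]
  refine (C.norm_θ_le _ _).trans (mul_le_mul_of_nonneg_right ?_ (norm_nonneg _))
  refine ((LinearMap.toContinuousLinearMap c).le_opNorm _).trans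
    ((mul_le_mul_of_nonneg_left (hg x) (norm_nonneg _)).trans ?_)
  rw [div_le_iff₀ hη'] at hr1
  rw [← mul_div_assoc, div_le_iff₀ hr0]
  linarith

/-- Weak = strong (cut-off + radial mollifier + Friedrichs).  The equation `QΨ = h` is tested only
on `DS 𝒮₀` (with which `Q` is compatible); the approximants keep the extra symmetries `𝒮₁`. -/
theorem weak_strong (C : Cl Θ F) (c : Y →ₗ[ℝ] Θ) {w : Y → Θ} (hw : ContDiff ℝ ∞ w)
    {𝒮₀ 𝒮₁ : Syms Y F} (h₀ : SymOK 𝒮₀) (h₁ : SymOK 𝒮₁) (hC : Compat C c w 𝒮₀) {Ψ h : Y → F}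
    (hΨ₀ : HS 𝒮₀ Ψ) (hΨ₁ : HS 𝒮₁ Ψ) (hh : HS 𝒮₀ h)
    (heq : ∀ φ, DS 𝒮₀ φ → ∫ x, ⟪Ψ x, dirac C c w φ x⟫_ℂ = ∫ x, ⟪h x, φ x⟫_ℂ) :
    ∃ φ : ℕ → Y → F, (∀ n, DS (𝒮₀ ∪ 𝒮₁) (φ n)) ∧
      Tendsto (fun n => eLpNorm (φ n - Ψ) 2 volume) atTop (𝓝 0) ∧
      Tendsto (fun n => eLpNorm (dirac C c w (φ n) - h) 2 volume) atTop (𝓝 0) := by
  choose φ h1 h2 h3 using fun n : ℕ => fab_approx C c hw h₀ h₁ hC hΨ₀ hΨ₁ hh heq
    (ε := (n : ℝ≥0∞)⁻¹) (ENNReal.inv_pos.2 (ENNReal.natCast_ne_top n))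
  have h0 := ENNReal.tendsto_inv_nat_nhds_zero
  refine ⟨φ, h1, tendsto_of_tendsto_of_tendsto_of_le_of_le tendsto_const_nhds ?_
    (fun _ => zero_le) h2, tendsto_of_tendsto_of_tendsto_of_le_of_le tendsto_const_nhds ?_
    (fun _ => zero_le) h3⟩
  · simpa using h0.add h0
  · simpa using ((h0.add h0).add h0).add h0

/-- Density of the symmetric core. -/
theorem HS.exists_seq {𝒮 : Syms Y F} (h𝒮 : SymOK 𝒮) {Ψ : Y → F} (hΨ : HS 𝒮 Ψ) :
    ∃ φ : ℕ → Y → F, (∀ n, DS 𝒮 (φ n)) ∧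
      Tendsto (fun n => eLpNorm (φ n - Ψ) 2 volume) atTop (𝓝 0) := by
  let C : Cl (EuclideanSpace ℝ (Fin 0)) F := ⟨0, fun _ => by simp, fun u v => by
    simp [Subsingleton.elim u 0]⟩
  obtain ⟨φ, h1, h2, -⟩ := weak_strong C 0 (w := fun _ => 0) contDiff_const h𝒮 h𝒮
    (fun p _ => ⟨fun _ => by simp, fun _ => by simp⟩) (h := 0) hΨ hΨ
    ⟨MemLp.zero, fun p _ => Eventually.of_forall fun x => by simp⟩ fun φ _ => by simp [dirac]
  exact ⟨φ, by simpa using h1, h2⟩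

theorem wk_eq_sk (C : Cl Θ F) (c : Y →ₗ[ℝ] Θ) {w : Y → Θ} (hw : ContDiff ℝ ∞ w)
    {𝒮 : Syms Y F} (h : SymOK 𝒮) (hC : Compat C c w 𝒮) :
    WK 𝒮 (dirac C c w) = SK 𝒮 (dirac C c w) := by
  ext Ψ
  constructor
  · rintro ⟨hΨ, heq⟩
    obtain ⟨φ, h1, h2, h3⟩ := weak_strong C c hw h h hC (h := 0) hΨ hΨ
      ⟨MemLp.zero, fun p _ => Eventually.of_forall fun x => by simp⟩ fun φ hφ => by simp [heq φ hφ]
    exact ⟨hΨ.1, φ, by simpa using h1, h2, by simpa using h3⟩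
  · rintro ⟨hΨ, φ, h1, h2, h3⟩
    refine ⟨HS.of_tendsto h (fun n => (h1 n).hs) hΨ h2, fun ψ hψ => ?_⟩
    have a1 := fab_pair (fun n => (h1 n).1.memLp) hΨ (hψ.1.dirac C c hw).memLp h2
    have a2 := fab_pair (f₀ := 0) (fun n => ((h1 n).1.dirac C c hw).memLp) MemLp.zero hψ.1.memLp
      (by simpa using h3)
    simp only [Pi.zero_apply, inner_zero_left, integral_zero] at a2
    refine tendsto_nhds_unique a1 (a2.congr fun n => ?_)
    exact dirac_symm C c hw.continuous ((h1 n).1.1.of_le (by simp)) (hψ.1.1.of_le (by simp))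
      (Or.inr hψ.1.2)

/-- A strong zero mode with extra symmetries is a strong zero mode of the smaller sector, and
conversely. -/
theorem sk_extra (C : Cl Θ F) (c : Y →ₗ[ℝ] Θ) {w : Y → Θ} (hw : ContDiff ℝ ∞ w)
    {𝒮₀ 𝒮₁ : Syms Y F} (h₀ : SymOK 𝒮₀) (h₁ : SymOK 𝒮₁) (hC : Compat C c w 𝒮₀) {Ψ : Y → F} :
    Ψ ∈ SK (𝒮₀ ∪ 𝒮₁) (dirac C c w) ↔ Ψ ∈ SK 𝒮₀ (dirac C c w) ∧ HS 𝒮₁ Ψ := by
  constructor
  · rintro ⟨hΨ, φ, h1, h2, h3⟩
    exact ⟨⟨hΨ, φ, fun n => ⟨(h1 n).1, fun p hp => (h1 n).2 p (Or.inl hp)⟩, h2, h3⟩,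
      HS.of_tendsto h₁ (fun n => DS.hs ⟨(h1 n).1, fun p hp => (h1 n).2 p (Or.inr hp)⟩) hΨ h2⟩
  · rintro ⟨hΨ, hΨ₁⟩
    rw [← wk_eq_sk C c hw h₀ hC] at hΨ
    obtain ⟨φ, h1, h2, h3⟩ := weak_strong C c hw h₀ h₁ hC (h := 0) hΨ.1 hΨ₁
      ⟨MemLp.zero, fun p _ => Eventually.of_forall fun x => by simp⟩
      fun φ hφ => by simp [hΨ.2 φ hφ]
    exact ⟨hΨ₁.1, φ, h1, h2, by simpa using h3⟩

end Crest.Agent.R330

end
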