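import Crest.Agent.R330.FA.A

/-! # Row 330, FA/BAux: radial mollifiers in `L²` (auxiliary lemmas for FA/B) -/

set_option autoImplicit false
set_option linter.unusedSectionVars false

noncomputable section

open MeasureTheory Filter Topology
open scoped InnerProductSpace ContDiff Matrix ENNReal

namespace Crest.Agent.R330

variable {Y Θ F : Type} [NormedAddCommGroup Y] [InnerProductSpace ℝ Y] [FiniteDimensional ℝ Y]
  [MeasurableSpace Y] [BorelSpace Y]
  [NormedAddCommGroup Θ] [InnerProductSpace ℝ Θ] [FiniteDimensional ℝ Θ]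
  [NormedAddCommGroup F] [InnerProductSpace ℂ F] [FiniteDimensional ℂ F]

theorem fab_sq (f : Y → F) : eLpNorm f 2 volume ^ (2 : ℝ) = ∫⁻ x, ‖f x‖ₑ ^ (2 : ℝ) := by
  rw [eLpNorm_eq_lintegral_rpow_enorm_toReal two_ne_zero ENNReal.ofNat_ne_top, ← ENNReal.rpow_mul]
  simp

/-- Minkowski's inequality for an average. -/
theorem fab_mink {ρ : Y → ℝ} (h0 : ∀ x, 0 ≤ ρ x) (hi : Integrable ρ) (h1 : ∫ x, ρ x = 1)
    {G : Y → Y → F}
    (hG : AEStronglyMeasurable (fun p : Y × Y => G p.2 p.1) ((volume : Measure Y).prod volume))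
    {ε : ℝ≥0∞} (hε : ∀ t, ρ t ≠ 0 → eLpNorm (G t) 2 volume ≤ ε) :
    eLpNorm (fun x => ∫ t, ρ t • G t x) 2 volume ≤ ε := by
  have hρ1 : ∫⁻ t, ENNReal.ofReal (ρ t) = 1 := by
    rw [← ofReal_integral_eq_lintegral_ofReal hi (Eventually.of_forall h0), h1, ENNReal.ofReal_one]
  have hρm : AEMeasurable (fun t => ENNReal.ofReal (ρ t)) volume :=
    hi.1.aemeasurable.ennreal_ofReal
  have hpt : ∀ᵐ x, ‖∫ t, ρ t • G t x‖ₑ ^ (2 : ℝ) ≤
      ∫⁻ t, ENNReal.ofReal (ρ t) * ‖G t x‖ₑ ^ (2 : ℝ) := by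
    filter_upwards [hG.prodMk_left] with x hx
    have hm : AEMeasurable (fun t => ENNReal.ofReal (ρ t) * ‖G t x‖ₑ ^ (2 : ℝ)) volume :=
      hρm.mul (hx.enorm.pow_const _)
    have h2 := ENNReal.lintegral_mul_norm_pow_le hρm hm (p := 1 / 2) (q := 1 / 2) (by norm_num)
      (by norm_num) (by norm_num)
    rw [hρ1, ENNReal.one_rpow, one_mul] at h2
    have h3 : ‖∫ t, ρ t • G t x‖ₑ ≤ (∫⁻ t, ENNReal.ofReal (ρ t) * ‖G t x‖ₑ ^ (2 : ℝ)) ^ (1 / 2 : ℝ) := by
      refine (enorm_integral_le_lintegral_enorm _).trans (le_trans (le_of_eq ?_) h2)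
      refine lintegral_congr fun t => ?_
      rw [enorm_smul, Real.enorm_eq_ofReal (h0 t), ENNReal.mul_rpow_of_nonneg _ _ (by norm_num),
        ← mul_assoc, ← ENNReal.rpow_add_of_nonneg _ _ (by norm_num) (by norm_num), ← ENNReal.rpow_mul]
      norm_num
    refine (ENNReal.rpow_le_rpow h3 (by norm_num)).trans (le_of_eq ?_)
    rw [← ENNReal.rpow_mul]
    norm_num
  rw [← ENNReal.rpow_le_rpow_iff (z := 2) (by norm_num), fab_sq]
  refine (lintegral_mono_ae hpt).trans ?_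
  rw [lintegral_lintegral_swap
    (f := fun x t => ENNReal.ofReal (ρ t) * ‖G t x‖ₑ ^ (2 : ℝ))
    (hρm.comp_snd.mul (hG.enorm.pow_const _))]
  calc ∫⁻ t, ∫⁻ x, ENNReal.ofReal (ρ t) * ‖G t x‖ₑ ^ (2 : ℝ)
      ≤ ∫⁻ t, ENNReal.ofReal (ρ t) * ε ^ (2 : ℝ) := by
        refine lintegral_mono fun t => ?_
        rw [lintegral_const_mul' _ _ ENNReal.ofReal_ne_top, ← fab_sq]
        by_cases ht : ρ t = 0
        · simp [ht]
        · exact mul_le_mul_right (ENNReal.rpow_le_rpow (hε t ht) (by norm_num)) _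
    _ = ε ^ (2 : ℝ) := by rw [lintegral_mul_const'' _ hρm, hρ1, one_mul]

/-- Continuity of translations in `L²`. -/
theorem fab_transl {g : Y → F} (hg : MemLp g 2 volume) :
    Tendsto (fun t => eLpNorm (fun x => g (x - t) - g x) 2 volume) (𝓝 0) (𝓝 0) := by
  let T : C(Y, C(Y, Y)) := (ContinuousMap.mk (fun a : Y × Y => a.2 - a.1) (by fun_prop)).curry
  have hT : ∀ t, MeasurePreserving (T t) volume volume := fun t => measurePreserving_sub_right volume t
  have h1 := ((continuous_const (y := hg.toLp g)).compMeasurePreservingLp T.continuous hT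
    ENNReal.ofNat_ne_top).tendsto 0
  rw [Lp.tendsto_Lp_iff_tendsto_eLpNorm'] at h1
  refine h1.congr fun t => eLpNorm_congr_ae ?_
  have h2 : ∀ t, (Lp.compMeasurePreserving (T t) (hT t) (hg.toLp g) : Y → F) =ᵐ[volume]
      fun x => g (x - t) := fun t =>
    (Lp.coeFn_compMeasurePreserving _ _).trans ((hT t).quasiMeasurePreserving.ae_eq_comp hg.coeFn_toLp)
  filter_upwards [h2 t, h2 0] with x hx hx0
  rw [Pi.sub_apply, hx, hx0, sub_zero]

/-- Normalised radial mollifier of width `δ`. -/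
def FabM (δ : ℝ) (ρ : Y → ℝ) : Prop :=
  ContDiff ℝ ∞ ρ ∧ HasCompactSupport ρ ∧
    Function.support ρ ⊆ Metric.ball 0 δ ∧ (∀ x, 0 ≤ ρ x) ∧ ∫ x, ρ x = 1 ∧
    ∀ x y, ‖x‖ = ‖y‖ → ρ x = ρ y

/-- Mollification. -/
def fabJ (ρ : Y → ℝ) (g : Y → F) : Y → F := fun x => ∫ t, ρ t • g (x - t)

theorem fabJ_eq (ρ : Y → ℝ) (g : Y → F) :
    fabJ ρ g = convolution ρ g (ContinuousLinearMap.lsmul ℝ ℝ) volume := by
  funext x
  rw [convolution_lsmul, fabJ]

variable {δ : ℝ} {ρ : Y → ℝ}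

theorem FabM.int (hρ : FabM δ ρ) : Integrable ρ :=
  hρ.1.continuous.integrable_of_hasCompactSupport hρ.2.1

theorem FabM.smooth (hρ : FabM δ ρ) {g : Y → F} (hg : LocallyIntegrable g volume) :
    ContDiff ℝ ∞ (fabJ ρ g) := by
  rw [fabJ_eq]
  exact hρ.2.1.contDiff_convolution_left _ hρ.1 hg

theorem FabM.ex (hρ : FabM δ ρ) {g : Y → F} (hg : LocallyIntegrable g volume) (x : Y) :
    Integrable fun t => ρ t • g (x - t) :=
  hρ.2.1.convolutionExists_left (ContinuousLinearMap.lsmul ℝ ℝ) hρ.1.continuous hg x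

theorem FabM.core (hρ : FabM δ ρ) {g : Y → F} (hg : Core g) : Core (fabJ ρ g) := by
  refine ⟨hρ.smooth hg.1.continuous.locallyIntegrable, ?_⟩
  rw [fabJ_eq]
  exact hρ.2.1.convolution _ hg.2

theorem fab_meas {g : Y → F} (hg : AEStronglyMeasurable g volume) :
    AEStronglyMeasurable (fun p : Y × Y => g (p.1 - p.2)) ((volume : Measure Y).prod volume) :=
  hg.comp_quasiMeasurePreserving (quasiMeasurePreserving_sub volume volume)

theorem FabM.young (hρ : FabM δ ρ) {g : Y → F} (hg : AEStronglyMeasurable g volume) :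
    eLpNorm (fabJ ρ g) 2 volume ≤ eLpNorm g 2 volume :=
  fab_mink hρ.2.2.2.1 hρ.int hρ.2.2.2.2.1 (G := fun t x => g (x - t)) (fab_meas hg) fun t _ =>
    le_of_eq (eLpNorm_comp_measurePreserving hg (measurePreserving_sub_right volume t))

theorem fab_conv {g : Y → F} (hg : MemLp g 2 volume) {ε : ℝ≥0∞} (hε : 0 < ε) :
    ∀ᶠ δ in 𝓝[>] (0 : ℝ), ∀ ρ : Y → ℝ, FabM δ ρ → eLpNorm (fabJ ρ g - g) 2 volume ≤ ε := by
  obtain ⟨r, hr, h⟩ := Metric.eventually_nhds_iff_ball.1
    ((fab_transl hg).eventually (ge_mem_nhds hε))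
  filter_upwards [Ioo_mem_nhdsGT hr] with δ hδ ρ hρ
  have e : fabJ ρ g - g = fun x => ∫ t, ρ t • (g (x - t) - g x) := by
    funext x
    simp only [smul_sub]
    rw [integral_sub (hρ.ex (hg.locallyIntegrable one_le_two) x) (hρ.int.smul_const _),
      integral_smul_const, hρ.2.2.2.2.1, one_smul]
    rfl
  rw [e]
  exact fab_mink hρ.2.2.2.1 hρ.int hρ.2.2.2.2.1 (G := fun t x => g (x - t) - g x)
    ((fab_meas hg.1).sub hg.1.comp_fst) fun t ht =>
      h t (Metric.ball_subset_ball hδ.2.le (hρ.2.2.1 ht))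

theorem FabM.sym (hρ : FabM δ ρ) {g : Y → F} (hg : LocallyIntegrable g volume) {R : Y →L[ℝ] Y}
    {U : F →L[ℂ] F} (hR : ∀ x, ‖R x‖ = ‖x‖) (h : (fun x => g (R x)) =ᵐ[volume] fun x => U (g x))
    (x : Y) : fabJ ρ g (R x) = U (fabJ ρ g x) := by
  set R' : Y ≃ₗᵢ[ℝ] Y := (⟨R.toLinearMap, hR⟩ : Y →ₗᵢ[ℝ] Y).toLinearIsometryEquiv rfl with hR'
  have e : ∀ t, R' t = R t := fun t => rfl
  unfold fabJ
  rw [← R'.measurePreserving.integral_comp R'.toHomeomorph.measurableEmbedding,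
    ← U.integral_comp_comm (hρ.ex hg x)]
  refine integral_congr_ae ?_
  filter_upwards [(Measure.measurePreserving_sub_left volume x).quasiMeasurePreserving.ae_eq_comp h] with t ht
  simp only [Function.comp] at ht
  rw [e, hρ.2.2.2.2.2 (R t) t (hR t), ← map_sub, ht, U.map_smul_of_tower]

theorem fabJ_swap (ρ : Y → ℝ) (g : Y → F) (x : Y) : fabJ ρ g x = ∫ t, ρ (x - t) • g t := by
  rw [fabJ_eq, convolution_lsmul_swap]

theorem FabM.ex' (hρ : FabM δ ρ) {g : Y → F} (hg : LocallyIntegrable g volume) (x : Y) :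
    Integrable fun t => ρ (x - t) • g t := by
  simpa only [sub_sub_cancel] using (hρ.ex hg x).comp_sub_left x

/-- The mollifier is self-adjoint. -/
theorem FabM.adj (hρ : FabM δ ρ) {g φ : Y → F} (hg : LocallyIntegrable g volume)
    (hφ : Continuous φ) (hc : HasCompactSupport φ) :
    ∫ x, ⟪g x, fabJ ρ φ x⟫_ℂ = ∫ x, ⟪fabJ ρ g x, φ x⟫_ℂ := by
  obtain ⟨r, hr⟩ := hc.isCompact.isBounded.subset_closedBall 0
  obtain ⟨M, hM⟩ := hρ.1.continuous.bounded_above_of_compact_support hρ.2.1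
  have hK := isCompact_closedBall (0 : Y) (δ + r)
  have hI : Integrable (Function.uncurry fun x y => ρ (x - y) • ⟪g x, φ y⟫_ℂ)
      ((volume : Measure Y).prod volume) := by
    refine Integrable.mono' ((((integrable_indicator_iff hK.measurableSet).2
      (hg.integrableOn_isCompact hK)).norm.const_mul M).mul_prod
      (hφ.integrable_of_hasCompactSupport hc).norm)
      ((hρ.1.continuous.comp (continuous_fst.sub continuous_snd)).aestronglyMeasurable.smul
        (hg.aestronglyMeasurable.comp_fst.inner hφ.aestronglyMeasurable.comp_snd))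
      (Eventually.of_forall fun p => ?_)
    simp only [Function.uncurry]
    have hM0 : 0 ≤ M := (norm_nonneg _).trans (hM 0)
    by_cases h1 : ρ (p.1 - p.2) = 0
    · rw [h1, zero_smul, norm_zero]
      positivity
    by_cases h2 : φ p.2 = 0
    · simp [h2]
    have h3 : p.1 ∈ Metric.closedBall (0 : Y) (δ + r) := by
      have a1 := mem_ball_zero_iff.1 (hρ.2.2.1 h1)
      have a2 := mem_closedBall_zero_iff.1 (hr (subset_tsupport _ h2))
      have a3 := norm_le_norm_sub_add p.1 p.2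
      rw [mem_closedBall_zero_iff]
      linarith
    rw [Set.indicator_of_mem h3, norm_smul, mul_assoc]
    exact mul_le_mul (hM _) (norm_inner_le_norm _ _) (norm_nonneg _) hM0
  have e1 : ∀ x, ⟪g x, fabJ ρ φ x⟫_ℂ = ∫ y, ρ (x - y) • ⟪g x, φ y⟫_ℂ := fun x => by
    rw [fabJ_swap, ← integral_inner (hρ.ex' hφ.locallyIntegrable x)]
    simp only [inner_smul_right_eq_smul]
  have e2 : ∀ y, ⟪fabJ ρ g y, φ y⟫_ℂ = ∫ x, ρ (x - y) • ⟪g x, φ y⟫_ℂ := fun y => by
    rw [← inner_conj_symm, fabJ_swap, ← integral_inner (hρ.ex' hg y), ← integral_conj]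
    refine integral_congr_ae (Eventually.of_forall fun x => ?_)
    simp only [inner_conj_symm, inner_smul_left_eq_smul]
    rw [hρ.2.2.2.2.2 _ _ (norm_sub_rev y x)]
  simp only [e1, e2]
  exact integral_integral_swap hI

/-- The free Dirac operator commutes with mollification. -/
theorem FabM.dirac (hρ : FabM δ ρ) (C : Cl Θ F) (c : Y →ₗ[ℝ] Θ) {φ : Y → F} (hφ : Core φ) :
    dirac C c (fun _ => 0) (fabJ ρ φ) = fabJ ρ (dirac C c (fun _ => 0) φ) := by
  funext x
  have hd : ∀ v, Continuous fun y => fderiv ℝ φ y v := fun v =>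
    (hφ.1.continuous_fderiv (by simp)).clm_apply continuous_const
  have e : ∀ v, fderiv ℝ (fabJ ρ φ) x v = fabJ ρ (fun y => fderiv ℝ φ y v) x := fun v => by
    rw [fabJ_eq, fabJ_eq, (hφ.2.hasFDerivAt_convolution_right (ContinuousLinearMap.lsmul ℝ ℝ)
      hρ.1.continuous.locallyIntegrable (hφ.1.of_le (by simp)) x).fderiv,
      convolution_precompR_apply _ hρ.1.continuous.locallyIntegrable (hφ.2.fderiv ℝ)
        (hφ.1.continuous_fderiv (by simp))]
  simp only [R330.dirac, map_zero, zero_apply, add_zero, e]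
  simp only [fabJ, R330.dirac, map_zero, zero_apply, add_zero, Finset.smul_sum]
  rw [integral_finsetSum]
  · refine Finset.sum_congr rfl fun i _ => ?_
    rw [← ContinuousLinearMap.integral_comp_comm _ (hρ.ex (hd _).locallyIntegrable x), ← integral_smul]
    refine integral_congr_ae (Eventually.of_forall fun t => ?_)
    simp only [ContinuousLinearMap.map_smul_of_tower]
    rw [smul_comm]
  · exact fun i _ => hρ.ex (g := fun y => (-Complex.I) • C.θ (c (stdOrthonormalBasis ℝ Y i))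
      (fderiv ℝ φ y (stdOrthonormalBasis ℝ Y i)))
      (((C.θ _).continuous.comp (hd _)).const_smul _).locallyIntegrable x

theorem fab_locInt {W : Y → F →L[ℂ] F} (hW : Continuous W) {g : Y → F}
    (hg : LocallyIntegrable g volume) : LocallyIntegrable (fun x => W x (g x)) volume := by
  have hn : LocallyIntegrable (fun x => ‖g x‖) volume :=
    hg.mono hg.aestronglyMeasurable.norm (Eventually.of_forall fun x => by simp)
  refine (LocallyIntegrable.continuous_mul hW.norm hn).mono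
    ((isBoundedBilinearMap_apply.continuous.comp_aestronglyMeasurable
      (hW.aestronglyMeasurable.prodMk hg.aestronglyMeasurable)))
    (Eventually.of_forall fun x => ((W x).le_opNorm _).trans (le_abs_self _))

/-- Friedrichs' commutator lemma for a continuous potential. -/
theorem fab_fried {W : Y → F →L[ℂ] F} (hW : Continuous W) {g : Y → F} (hg : MemLp g 2 volume)
    {χ : Y → ℝ} (hχ : Continuous χ) (h1 : ∀ x, 0 ≤ χ x ∧ χ x ≤ 1) {r : ℝ}
    (h0 : ∀ x, r ≤ ‖x‖ → χ x = 0) {ε : ℝ≥0∞} (hε : 0 < ε) :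
    ∀ᶠ δ in 𝓝[>] (0 : ℝ), ∀ ρ : Y → ℝ, FabM δ ρ → eLpNorm (fun x => (χ x : ℂ) •
      (W x (fabJ ρ g x) - fabJ ρ (fun y => W y (g y)) x)) 2 volume ≤ ε := by
  obtain ⟨η, hη, hηε⟩ := ENNReal.exists_nnreal_pos_mul_lt hg.2.ne hε.ne'
  have h2 : ∀ᶠ t in 𝓝 (0 : Y), ∀ x ∈ Metric.closedBall (0 : Y) r, ‖W x - W (x - t)‖ < η := by
    refine (isCompact_closedBall (0 : Y) r).eventually_forall_of_forall_eventually fun y _ => ?_
    have hc : Continuous fun z : Y × Y => ‖W z.2 - W (z.2 - z.1)‖ := by fun_prop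
    exact hc.continuousAt.eventually_lt continuousAt_const (by simpa using hη)
  obtain ⟨s, hs, h⟩ := Metric.eventually_nhds_iff_ball.1 h2
  filter_upwards [Ioo_mem_nhdsGT hs] with δ hδ ρ hρ
  have hl := hg.locallyIntegrable one_le_two
  have e : (fun x => (χ x : ℂ) • (W x (fabJ ρ g x) - fabJ ρ (fun y => W y (g y)) x)) =
      fun x => ∫ t, ρ t • ((χ x : ℂ) • (W x - W (x - t)) (g (x - t))) := by
    funext x
    unfold fabJ
    rw [← (W x).integral_comp_comm (hρ.ex hl x), ← integral_sub ((W x).integrable_comp (hρ.ex hl x))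
      (hρ.ex (fab_locInt hW hl) x), ← integral_smul]
    refine integral_congr_ae (Eventually.of_forall fun t => ?_)
    simp only [ContinuousLinearMap.map_smul_of_tower, sub_apply]
    rw [← smul_sub, smul_comm]
  rw [e]
  refine fab_mink hρ.2.2.2.1 hρ.int hρ.2.2.2.2.1
    (G := fun t x => (χ x : ℂ) • (W x - W (x - t)) (g (x - t))) ?_ fun t ht => ?_
  · have a1 : Continuous fun p : Y × Y => W p.1 - W (p.1 - p.2) := by fun_prop
    have a2 : Continuous fun p : Y × Y => (χ p.1 : ℂ) := by fun_prop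
    exact a2.aestronglyMeasurable.smul (isBoundedBilinearMap_apply.continuous.comp_aestronglyMeasurable
      (a1.aestronglyMeasurable.prodMk (fab_meas hg.1)))
  · refine le_trans ?_ hηε.le
    rw [← eLpNorm_comp_measurePreserving hg.1 (measurePreserving_sub_right volume t),
      ← ENNReal.ofReal_coe_nnreal]
    refine eLpNorm_le_mul_eLpNorm_of_ae_le_mul (Eventually.of_forall fun x => ?_) _
    by_cases hx : r ≤ ‖x‖
    · rw [h0 x hx, Complex.ofReal_zero, zero_smul, norm_zero]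
      positivity
    rw [norm_smul, Complex.norm_real, Real.norm_of_nonneg (h1 x).1]
    refine (mul_le_of_le_one_left (norm_nonneg _) (h1 x).2).trans
      ((ContinuousLinearMap.le_opNorm _ _).trans (mul_le_mul_of_nonneg_right ?_ (norm_nonneg _)))
    exact (h t (Metric.ball_subset_ball hδ.2.le (hρ.2.2.1 ht)) x
      (mem_closedBall_zero_iff.2 (not_le.1 hx).le)).le

/-- Cut-offs converge to the identity. -/
theorem fab_tail {g : Y → F} (hg : MemLp g 2 volume) {ε : ℝ≥0∞} (hε : 0 < ε) :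
    ∀ᶠ r : ℝ in atTop, ∀ χ : Y → ℝ, (∀ x, 0 ≤ χ x ∧ χ x ≤ 1) → (∀ x, ‖x‖ ≤ r → χ x = 1) →
      eLpNorm (fun x => (χ x : ℂ) • g x - g x) 2 volume ≤ ε := by
  obtain ⟨g₀, hc, h, -, -⟩ := hg.exists_hasCompactSupport_eLpNorm_sub_le ENNReal.ofNat_ne_top hε.ne'
  obtain ⟨r₀, hr⟩ := hc.isCompact.isBounded.subset_closedBall 0
  filter_upwards [eventually_ge_atTop r₀] with r hr' χ h1 h2
  refine le_trans (eLpNorm_mono fun x => ?_) h
  by_cases hx : ‖x‖ ≤ r
  · simp [h2 x hx]
  have h0 : g₀ x = 0 := image_eq_zero_of_notMem_tsupport fun hx' =>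
    hx ((mem_closedBall_zero_iff.1 (hr hx')).trans hr')
  have e : (χ x : ℂ) • g x - g x = ((χ x - 1 : ℝ) : ℂ) • g x := by simp [sub_smul]
  rw [e, Pi.sub_apply, h0, sub_zero, norm_smul, Complex.norm_real, Real.norm_eq_abs]
  exact mul_le_of_le_one_left (norm_nonneg _) (abs_le.2 ⟨by linarith [(h1 x).1], by linarith [(h1 x).2]⟩)

/-- Continuity of the `L²` pairing. -/
theorem fab_pair {f : ℕ → Y → F} {f₀ g : Y → F} (hf : ∀ n, MemLp (f n) 2 volume)
    (hf₀ : MemLp f₀ 2 volume) (hg : MemLp g 2 volume)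
    (h : Tendsto (fun n => eLpNorm (f n - f₀) 2 volume) atTop (𝓝 0)) :
    Tendsto (fun n => ∫ x, ⟪f n x, g x⟫_ℂ) atTop (𝓝 (∫ x, ⟪f₀ x, g x⟫_ℂ)) := by
  have e : ∀ (u : Y → F) (hu : MemLp u 2 volume), ⟪hu.toLp u, hg.toLp g⟫_ℂ = ∫ x, ⟪u x, g x⟫_ℂ :=
    fun u hu => by
    rw [L2.inner_def]
    refine integral_congr_ae ?_
    filter_upwards [hu.coeFn_toLp, hg.coeFn_toLp] with x h1 h2
    rw [h1, h2]
  have h1 := ((Lp.tendsto_Lp_iff_tendsto_eLpNorm'' f hf f₀ hf₀).2 h).inner (𝕜 := ℂ)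
    (tendsto_const_nhds (x := hg.toLp g))
  simpa only [e] using h1

end Crest.Agent.R330

end
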