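import Crest.Agent.R330.FA.B

/-! # Row 330, FA/C (statements frozen; see `R330/Blueprint.lean`) -/

set_option autoImplicit false
set_option linter.unusedSectionVars false

noncomputable section

open MeasureTheory Filter Topology
open scoped InnerProductSpace ContDiff Matrix

namespace Crest.Agent.R330

variable {Y Θ F : Type} [NormedAddCommGroup Y] [InnerProductSpace ℝ Y] [FiniteDimensional ℝ Y]
  [MeasurableSpace Y] [BorelSpace Y]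
  [NormedAddCommGroup Θ] [InnerProductSpace ℝ Θ] [FiniteDimensional ℝ Θ]
  [NormedAddCommGroup F] [InnerProductSpace ℂ F] [FiniteDimensional ℂ F]

theorem facC_pj_fix {Γ : F →L[ℂ] F} (h2 : Γ * Γ = 1) (v : F) :
    (1 / 2 : ℂ) • (v + Γ v) = Γ ((1 / 2 : ℂ) • (v + Γ v)) := by
  have : Γ (Γ v) = v := congrArg (fun L : F →L[ℂ] F => L v) h2
  rw [map_smul, map_add, this, add_comm]

theorem facC_pj_comm {Γ U : F →L[ℂ] F} (h : Γ * U = U * Γ) (v : F) :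
    (1 / 2 : ℂ) • (U v + Γ (U v)) = U ((1 / 2 : ℂ) • (v + Γ v)) := by
  have : Γ (U v) = U (Γ v) := congrArg (fun L : F →L[ℂ] F => L v) h
  rw [map_smul, map_add, this]

theorem facC_inner_pj {Γ : F →L[ℂ] F} (h : IsSelfAdjoint Γ) (u v : F) :
    ⟪(1 / 2 : ℂ) • (u + Γ u), v⟫_ℂ = ⟪u, (1 / 2 : ℂ) • (v + Γ v)⟫_ℂ := by
  have h1 : ⟪Γ u, v⟫_ℂ = ⟪u, Γ v⟫_ℂ := h.isSymmetric u v
  rw [inner_smul_left, inner_smul_right, inner_add_left, inner_add_right, h1]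
  simp [map_ofNat]

theorem facC_hs_pj {𝒮 : Syms Y F} {Γ : F →L[ℂ] F} (h2 : Γ * Γ = 1)
    (hΓ𝒮 : ∀ p ∈ 𝒮, Γ * p.2 = p.2 * Γ) {Ψ : Y → F} (hΨ : HS 𝒮 Ψ) :
    HS (withPar 𝒮 Γ) fun x => (1 / 2 : ℂ) • (Ψ x + Γ (Ψ x)) := by
  refine ⟨(hΨ.1.add (Γ.comp_memLp' hΨ.1)).const_smul (1 / 2 : ℂ), fun p hp => ?_⟩
  rcases hp with rfl | hp
  · exact Eventually.of_forall fun x => facC_pj_fix h2 _
  · filter_upwards [hΨ.2 p hp] with x hx
    rw [hx]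
    exact facC_pj_comm (hΓ𝒮 p hp) _

theorem facC_core_clm (Γ : F →L[ℂ] F) {ψ : Y → F} (hψ : Core ψ) : Core fun x => Γ (ψ x) :=
  ⟨(Γ.restrictScalars ℝ).contDiff.comp hψ.1, hψ.2.comp_left (g := Γ) (map_zero Γ)⟩

theorem facC_ds_pj {𝒮 : Syms Y F} {Γ : F →L[ℂ] F} (h2 : Γ * Γ = 1)
    (hΓ𝒮 : ∀ p ∈ 𝒮, Γ * p.2 = p.2 * Γ) {ψ : Y → F} (hψ : DS 𝒮 ψ) :
    DS (withPar 𝒮 Γ) fun x => (1 / 2 : ℂ) • (ψ x + Γ (ψ x)) := by
  have h1 := facC_core_clm Γ hψ.1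
  refine ⟨⟨(hψ.1.1.add h1.1).const_smul (1 / 2 : ℂ),
    (hψ.1.2.add h1.2).comp_left (g := fun v : F => (1 / 2 : ℂ) • v) (smul_zero _)⟩, fun p hp x => ?_⟩
  rcases hp with rfl | hp
  · exact facC_pj_fix h2 _
  · simp only
    rw [hψ.2 p hp x]
    exact facC_pj_comm (hΓ𝒮 p hp) _

theorem facC_dirac_pj (C : Cl Θ F) (c : Y →ₗ[ℝ] Θ) (w : Y → Θ) {Γ : F →L[ℂ] F} (hΓ : IsPar C Γ)
    {ψ : Y → F} (hψ : Core ψ) (x : Y) :
    dirac C c w (fun x => (1 / 2 : ℂ) • (ψ x + (-Γ) (ψ x))) x =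
      (1 / 2 : ℂ) • (dirac C c w ψ x + Γ (dirac C c w ψ x)) := by
  have hd : DifferentiableAt ℝ ψ x := hψ.1.differentiable (by simp) x
  have hd' : DifferentiableAt ℝ (fun y => (-Γ) (ψ y)) x :=
    (facC_core_clm (-Γ) hψ).1.differentiable (by simp) x
  have h1 := dirac_csmul C c w (1 / 2 : ℂ) (ψ + fun y => (-Γ) (ψ y)) x
  rw [dirac_add C c w hd hd', dirac_par C c w (Γ := -Γ) (fun v => by simp [hΓ.2.2 v]) hd] at h1
  simp only [neg_apply, neg_neg] at h1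
  exact h1

theorem facC_norm_sq (v : Lp F 2 (volume : Measure Y)) : ∫ x, ‖v x‖ ^ 2 = ‖v‖ ^ 2 := by
  have h := L2.inner_def (𝕜 := ℂ) v v
  simp only [inner_self_eq_norm_sq_to_K] at h
  have h2 : ((∫ x, ‖v x‖ ^ 2 : ℝ) : ℂ) = ((‖v‖ ^ 2 : ℝ) : ℂ) := by
    rw [← integral_complex_ofReal]
    push_cast
    exact h.symm
  exact_mod_cast h2

/-- The parity components of a weak zero mode are weak zero modes. -/
theorem wk_par (C : Cl Θ F) (c : Y →ₗ[ℝ] Θ) {w : Y → Θ} (hw : ContDiff ℝ ∞ w) {𝒮 : Syms Y F}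
    (h : SymOK 𝒮) {Γ : F →L[ℂ] F} (hΓ : IsPar C Γ) (hΓ𝒮 : ∀ p ∈ 𝒮, Γ * p.2 = p.2 * Γ)
    {Ψ : Y → F} (hΨ : Ψ ∈ WK 𝒮 (dirac C c w)) :
    (fun x => (1 / 2 : ℂ) • (Ψ x + Γ (Ψ x))) ∈ WK 𝒮 (dirac C c w) ∧
      HS (withPar 𝒮 Γ) fun x => (1 / 2 : ℂ) • (Ψ x + Γ (Ψ x)) := by
  have hs := facC_hs_pj hΓ.2.1 hΓ𝒮 hΨ.1
  refine ⟨⟨⟨hs.1, fun p hp => hs.2 p (Set.mem_insert_of_mem _ hp)⟩, fun φ hφ => ?_⟩, hs⟩
  have h1 := facC_ds_pj (Γ := -Γ) (by simpa using hΓ.2.1) (fun p hp => by simpa using hΓ𝒮 p hp) hφ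
  rw [← hΨ.2 _ ⟨h1.1, fun p hp => h1.2 p (Set.mem_insert_of_mem _ hp)⟩]
  refine integral_congr_ae (Eventually.of_forall fun x => ?_)
  simp only
  rw [facC_dirac_pj C c w hΓ hφ.1 x, facC_inner_pj hΓ.1]

theorem IsPar.neg {C : Cl Θ F} {Γ : F →L[ℂ] F} (h : IsPar C Γ) : IsPar C (-Γ) := by
  exact ⟨h.1.neg, by simpa using h.2.1, fun v => by simp [h.2.2 v]⟩

theorem symOK_withPar {C : Cl Θ F} {𝒮 : Syms Y F} (h : SymOK 𝒮) {Γ : F →L[ℂ] F}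
    (hΓ : IsPar C Γ) : SymOK (withPar 𝒮 Γ) := by
  rintro p (rfl | hp)
  · refine ⟨fun x => rfl, fun v => ?_⟩
    have h1 : ⟪Γ v, Γ v⟫_ℂ = ⟪v, Γ (Γ v)⟫_ℂ := hΓ.1.isSymmetric v (Γ v)
    have h2 : Γ (Γ v) = v := congrArg (fun L : F →L[ℂ] F => L v) hΓ.2.1
    rw [h2, inner_self_eq_norm_sq_to_K, inner_self_eq_norm_sq_to_K] at h1
    have h3 : ‖Γ v‖ ^ 2 = ‖v‖ ^ 2 := by exact_mod_cast h1
    exact (pow_left_inj₀ (norm_nonneg _) (norm_nonneg _) two_ne_zero).1 h3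
  · exact h p hp

/-- Duality lemma: an even quasi-mode (tested against the odd core) is close to a zero mode. -/
theorem duality (C : Cl Θ F) (c : Y →ₗ[ℝ] Θ) {w : Y → Θ} (hw : ContDiff ℝ ∞ w) {𝒮 : Syms Y F}
    (h : SymOK 𝒮) (hC : Compat C c w 𝒮) {Γ : F →L[ℂ] F} (hΓ : IsPar C Γ)
    (hΓ𝒮 : ∀ p ∈ 𝒮, Γ * p.2 = p.2 * Γ) {φ : Y → F} (hφ : HS (withPar 𝒮 Γ) φ) {δ : ℝ}
    (hδ : 0 ≤ δ) (hq : ∀ ψ, DS (withPar 𝒮 (-Γ)) ψ →
      ‖∫ x, ⟪φ x, dirac C c w ψ x⟫_ℂ‖ ≤ δ * √(∫ x, ‖dirac C c w ψ x‖ ^ 2)) :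
    ∃ φ' ∈ WK 𝒮 (dirac C c w), ∫ x, ‖φ x - φ' x‖ ^ 2 ≤ δ ^ 2 := by
  have hd : ∀ {ψ : Y → F}, Core ψ → ∀ x, DifferentiableAt ℝ ψ x := fun hψ x =>
    hψ.1.differentiable (by simp) x
  let V : Submodule ℂ (Lp F 2 (volume : Measure Y)) :=
    { carrier := {v | ∃ ψ, DS (withPar 𝒮 (-Γ)) ψ ∧ v =ᵐ[volume] dirac C c w ψ}
      add_mem' := by
        rintro a b ⟨ψ, hψ, ha⟩ ⟨ψ', hψ', hb⟩
        refine ⟨ψ + ψ', hψ.add hψ', ?_⟩
        filter_upwards [Lp.coeFn_add a b, ha, hb] with x h1 h2 h3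
        rw [h1, Pi.add_apply, h2, h3, dirac_add C c w (hd hψ.1 x) (hd hψ'.1 x)]
      zero_mem' := by
        refine ⟨0, ⟨⟨contDiff_const, HasCompactSupport.zero⟩, fun p _ x => by simp⟩, ?_⟩
        filter_upwards [Lp.coeFn_zero F 2 (volume : Measure Y)] with x h1
        rw [h1]
        simp [dirac]
      smul_mem' := by
        rintro a b ⟨ψ, hψ, hb⟩
        refine ⟨a • ψ, hψ.csmul a, ?_⟩
        filter_upwards [Lp.coeFn_smul a b, hb] with x h1 h2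
        rw [h1, Pi.smul_apply, h2, dirac_csmul] }
  let K := V.topologicalClosure
  have : CompleteSpace K := V.isClosed_topologicalClosure.completeSpace_coe
  let u := hφ.1.toLp φ
  have hu : u =ᵐ[volume] φ := hφ.1.coeFn_toLp
  let p := K.starProjection u
  have hpK : p ∈ K := K.starProjection_apply_mem u
  have horth : ∀ v ∈ K, ⟪u - p, v⟫_ℂ = 0 := fun v hv => K.starProjection_inner_eq_zero u v hv
  have hb : ∀ v ∈ K, ‖⟪u, v⟫_ℂ‖ ≤ δ * ‖v‖ := by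
    intro v hv
    refine closure_minimal (s := (V : Set (Lp F 2 (volume : Measure Y))))
      (t := {v | ‖⟪u, v⟫_ℂ‖ ≤ δ * ‖v‖}) ?_ (isClosed_le (by fun_prop) (by fun_prop)) hv
    rintro v ⟨ψ, hψ, hv⟩
    have h1 := hq ψ hψ
    have h2 : ∫ x, ‖dirac C c w ψ x‖ ^ 2 = ‖v‖ ^ 2 := by
      rw [← facC_norm_sq]
      refine integral_congr_ae ?_
      filter_upwards [hv] with x hx
      rw [hx]
    have h3 : ∫ x, ⟪φ x, dirac C c w ψ x⟫_ℂ = ⟪u, v⟫_ℂ := by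
      rw [L2.inner_def]
      refine integral_congr_ae ?_
      filter_upwards [hv, hu] with x hx hx'
      rw [hx, hx']
    rwa [h2, h3, Real.sqrt_sq (norm_nonneg _)] at h1
  have hp : ‖p‖ ≤ δ := by
    have h1 : ⟪u, p⟫_ℂ = ⟪p, p⟫_ℂ := by
      have := horth p hpK
      rwa [inner_sub_left, sub_eq_zero] at this
    have h2 := hb p hpK
    rw [h1, inner_self_eq_norm_sq_to_K] at h2
    simp only [norm_pow, Complex.coe_algebraMap, Complex.norm_real, norm_norm] at h2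
    by_contra hlt
    push Not at hlt
    nlinarith [norm_nonneg p]
  have hph : HS (withPar 𝒮 Γ) p := by
    obtain ⟨v, hv, hlim⟩ := mem_closure_iff_seq_limit.1 hpK
    choose ψ hψ hvψ using hv
    refine HS.of_tendsto (symOK_withPar h hΓ) (φ := fun n => dirac C c w (ψ n)) (fun n => DS.hs ?_)
      (Lp.memLp p) ?_
    · have h1 := DS.dirac hw h hC (ψ := ψ n) ⟨(hψ n).1, fun q hq => (hψ n).2 q (Set.mem_insert_of_mem _ hq)⟩
      refine ⟨h1.1, ?_⟩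
      rintro q (rfl | hq) x
      · have h2 : ψ n = fun y => (-Γ) (ψ n y) := funext fun y => (hψ n).2 _ (Set.mem_insert _ _) y
        have h3 := dirac_par C c w hΓ.neg.2.2 (hd (hψ n).1 x)
        rw [← h2] at h3
        simpa using h3
      · exact h1.2 q hq x
    · have := (Lp.tendsto_Lp_iff_tendsto_eLpNorm' v p).1 hlim
      refine this.congr fun n => eLpNorm_congr_ae ?_
      filter_upwards [hvψ n] with x hx
      simp only [Pi.sub_apply, hx]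
  have hφ' : HS (withPar 𝒮 Γ) fun x => φ x - p x := by
    refine ⟨hφ.1.sub hph.1, fun q hq => ?_⟩
    filter_upwards [hφ.2 q hq, hph.2 q hq] with x h1 h2
    rw [h1, h2, map_sub]
  refine ⟨fun x => φ x - p x, ⟨⟨hφ'.1, fun q hq => hφ'.2 q (Set.mem_insert_of_mem _ hq)⟩, fun ψ hψ => ?_⟩, ?_⟩
  · have h1 := facC_ds_pj (Γ := -Γ) hΓ.neg.2.1 (fun p hp => by simpa using hΓ𝒮 p hp) hψ
    have h2 := (h1.1.dirac C c hw).memLp
    have h3 := horth (h2.toLp _) (V.le_topologicalClosure ⟨_, h1, h2.coeFn_toLp⟩)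
    rw [L2.inner_def] at h3
    rw [← h3]
    refine integral_congr_ae ?_
    filter_upwards [h2.coeFn_toLp, Lp.coeFn_sub u p, hu, hφ'.2 _ (Set.mem_insert _ _)] with x e1 e2 e3 e4
    rw [e1, e2, Pi.sub_apply, e3, facC_dirac_pj C c w hΓ hψ.1 x, ← facC_inner_pj hΓ.1]
    simp only [ContinuousLinearMap.id_apply] at e4
    rw [← e4, ← two_smul ℂ, smul_smul]
    simp
  · simp only [sub_sub_cancel]
    rw [facC_norm_sq]
    exact pow_le_pow_left₀ (norm_nonneg _) hp 2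

end Crest.Agent.R330

end
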