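import Crest.Agent.R330.FA.C

/-! # Row 330, FA/D (statements frozen; see `R330/Blueprint.lean`) -/

set_option autoImplicit false
set_option linter.unusedSectionVars false

noncomputable section

open MeasureTheory Filter Topology
open scoped InnerProductSpace ContDiff Matrix

namespace Crest.Agent.R330

variable {Y Θ F : Type} [NormedAddCommGroup Y] [InnerProductSpace ℝ Y] [FiniteDimensional ℝ Y]
  [MeasurableSpace Y] [BorelSpace Y]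
  [NormedAddCommGroup Θ] [InnerProductSpace ℝ Θ] [FiniteDimensional ℝ Θ]
  [NormedAddCommGroup F] [InnerProductSpace ℂ F] [FiniteDimensional ℂ F]

theorem fad_inner {f g : Y → F} (hf : MemLp f 2 volume) (hg : MemLp g 2 volume) :
    ⟪hf.toLp f, hg.toLp g⟫_ℂ = ∫ x, ⟪f x, g x⟫_ℂ := by
  rw [L2.inner_def]
  refine integral_congr_ae ?_
  filter_upwards [hf.coeFn_toLp, hg.coeFn_toLp] with x h1 h2
  rw [h1, h2]

theorem fad_int {f g : Y → F} (hf : MemLp f 2 volume) (hg : MemLp g 2 volume) :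
    Integrable (fun x => ⟪f x, g x⟫_ℂ) volume := by
  refine (L2.integrable_inner (𝕜 := ℂ) (hf.toLp f) (hg.toLp g)).congr ?_
  filter_upwards [hf.coeFn_toLp, hg.coeFn_toLp] with x h1 h2
  rw [h1, h2]

theorem fad_symm {f g : Y → F} (h : ∫ x, ⟪f x, g x⟫_ℂ = 0) : ∫ x, ⟪g x, f x⟫_ℂ = 0 := by
  have : ∫ x, ⟪g x, f x⟫_ℂ = ∫ x, (starRingEnd ℂ) ⟪f x, g x⟫_ℂ := by simp only [inner_conj_symm]
  rw [this, integral_conj, h, map_zero]

/-- the isometry of `Y` underlying a symmetry -/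
def fad_iso (R : Y →L[ℝ] Y) (h : ∀ x, ‖R x‖ = ‖x‖) : Y ≃ₗᵢ[ℝ] Y :=
  LinearIsometry.toLinearIsometryEquiv ⟨R.toLinearMap, h⟩ rfl

theorem fad_iso_apply (R : Y →L[ℝ] Y) (h : ∀ x, ‖R x‖ = ‖x‖) (x : Y) : fad_iso R h x = R x := rfl

theorem fad_congr {𝒮 : Syms Y F} (h𝒮 : SymOK 𝒮) {Ψ Ψ' : Y → F} (h : HS 𝒮 Ψ)
    (e : Ψ =ᵐ[volume] Ψ') : HS 𝒮 Ψ' := by
  refine ⟨h.1.ae_eq e, fun p hp => ?_⟩
  have h1 := (fad_iso p.1 (h𝒮 p hp).1).measurePreserving.quasiMeasurePreserving.ae_eq_comp e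
  filter_upwards [h1, e, h.2 p hp] with x a b c
  have a' : Ψ (p.1 x) = Ψ' (p.1 x) := a
  rw [← a', ← b, c]

/-- the symmetric subspace of `L²` -/
def fad_H {𝒮 : Syms Y F} (h𝒮 : SymOK 𝒮) : Submodule ℂ (Lp F 2 (volume : Measure Y)) where
  carrier := {f | HS 𝒮 f}
  add_mem' := fun {f g} hf hg => by
    refine fad_congr h𝒮 (Ψ := ⇑f + ⇑g) ⟨hf.1.add hg.1, fun p hp => ?_⟩ (Lp.coeFn_add f g).symm
    filter_upwards [hf.2 p hp, hg.2 p hp] with x a b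
    simp only [Pi.add_apply, a, b, map_add]
  zero_mem' := fad_congr h𝒮 (Ψ := 0) ⟨MemLp.zero, fun p _ => by simp⟩ (Lp.coeFn_zero _ _ _).symm
  smul_mem' := fun a f hf => by
    refine fad_congr h𝒮 (Ψ := a • ⇑f) ⟨hf.1.const_smul a, fun p hp => ?_⟩ (Lp.coeFn_smul a f).symm
    filter_upwards [hf.2 p hp] with x b
    simp only [Pi.smul_apply, b, map_smul]

theorem fad_H_closed {𝒮 : Syms Y F} (h𝒮 : SymOK 𝒮) :
    IsClosed (fad_H h𝒮 : Set (Lp F 2 (volume : Measure Y))) := by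
  refine IsSeqClosed.isClosed fun f g hf hg => ?_
  exact HS.of_tendsto h𝒮 (φ := fun n => f n) hf (Lp.memLp g)
    ((Lp.tendsto_Lp_iff_tendsto_eLpNorm' f g).1 hg)

/-- removing the component along the closed span of `G` -/
theorem fad_dec {𝒮 : Syms Y F} (h𝒮 : SymOK 𝒮) {G : Set (Y → F)} (hG : ∀ f ∈ G, HS 𝒮 f)
    {ψ : Y → F} (hψ : HS 𝒮 ψ) : ∃ z, HS 𝒮 z ∧ (∀ f ∈ G, ∫ x, ⟪z x, f x⟫_ℂ = 0) ∧
      ∀ χ, MemLp χ 2 volume → (∀ f ∈ G, ∫ x, ⟪χ x, f x⟫_ℂ = 0) →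
        ∫ x, ⟪χ x, ψ x⟫_ℂ = ∫ x, ⟪χ x, z x⟫_ℂ := by
  let S : Set (Lp F 2 (volume : Measure Y)) := {u | ∃ f, ∃ hf : f ∈ G, u = (hG f hf).1.toLp f}
  let W := (Submodule.span ℂ S).topologicalClosure
  have hW : W ≤ fad_H h𝒮 := by
    refine Submodule.topologicalClosure_minimal _ (Submodule.span_le.2 ?_) (fad_H_closed h𝒮)
    rintro _ ⟨f, hf, rfl⟩
    exact fad_congr h𝒮 (hG f hf) (hG f hf).1.coeFn_toLp.symm
  obtain ⟨b, hb, z, hz, e⟩ := W.exists_add_mem_mem_orthogonal (hψ.1.toLp ψ)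
  have hzz : (Lp.memLp z).toLp z = z := Lp.toLp_coeFn _ _
  refine ⟨z, ?_, fun f hf => ?_, fun χ hχ hχ' => ?_⟩
  · have h1 : hψ.1.toLp ψ ∈ fad_H h𝒮 := fad_congr h𝒮 hψ hψ.1.coeFn_toLp.symm
    have h2 := (fad_H h𝒮).sub_mem h1 (hW hb)
    rw [e, add_sub_cancel_left] at h2
    exact h2
  · rw [← fad_inner (Lp.memLp z) (hG f hf).1, hzz]
    exact (Submodule.mem_orthogonal' _ _).1 hz _
      (Submodule.le_topologicalClosure _ (Submodule.subset_span ⟨f, hf, rfl⟩))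
  · rw [← fad_inner hχ hψ.1, ← fad_inner hχ (Lp.memLp z), hzz, e, inner_add_right]
    have h1 : W ≤ (ℂ ∙ hχ.toLp χ)ᗮ := by
      refine Submodule.topologicalClosure_minimal _ (Submodule.span_le.2 ?_)
        (Submodule.isClosed_orthogonal _)
      rintro _ ⟨f, hf, rfl⟩
      exact Submodule.mem_orthogonal_singleton_iff_inner_right.2
        (by rw [fad_inner]; exact hχ' f hf)
    rw [Submodule.mem_orthogonal_singleton_iff_inner_right.1 (h1 hb), zero_add]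

theorem fad_grad_sm {g : Y → ℝ} (hg : ContDiff ℝ ∞ g) : ContDiff ℝ ∞ (gradient g) :=
  (InnerProductSpace.toDual ℝ Y).symm.toContinuousLinearEquiv.contDiff.comp
    (hg.fderiv_right (m := ∞) le_rfl)

theorem fad_grad_inv {g : Y → ℝ} (hg : ContDiff ℝ ∞ g) {R : Y →L[ℝ] Y} (hR : ∀ x, ‖R x‖ = ‖x‖)
    (hi : ∀ x, g (R x) = g x) (x : Y) : gradient g (R x) = R (gradient g x) := by
  refine ext_inner_right ℝ fun v => ?_
  obtain ⟨u, rfl⟩ := (fad_iso R hR).surjective v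
  have h1 : fderiv ℝ (g ∘ R) x = (fderiv ℝ g (R x)).comp R :=
    ((hg.differentiable (by simp) (R x)).hasFDerivAt.comp x R.hasFDerivAt).fderiv
  have h2 : g ∘ R = g := funext hi
  rw [h2] at h1
  rw [← fad_iso_apply R hR (gradient g x), LinearIsometryEquiv.inner_map_map, inner_gradient_left,
    inner_gradient_left, h1]
  rfl

theorem fad_grad_exp {f : Y → ℝ} (hf : ContDiff ℝ ∞ f) (x : Y) :
    gradient (fun y => Real.exp (f y)) x = Real.exp (f x) • gradient f x := by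
  refine ext_inner_right ℝ fun v => ?_
  rw [inner_smul_left, inner_gradient_left, inner_gradient_left,
    (hf.differentiable (by simp) x).hasFDerivAt.exp.fderiv]
  simp

theorem fad_grad_neg (f : Y → ℝ) (x : Y) : gradient (fun y => -f y) x = -gradient f x := by
  refine ext_inner_right ℝ fun v => ?_
  rw [inner_neg_left, inner_gradient_left, inner_gradient_left, fderiv_fun_neg]
  simp

/-- multiplication by `exp f` -/
def fadT (f : Y → ℝ) (φ : Y → F) : Y → F := fun x => (Real.exp (f x) : ℂ) • φ x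

theorem fadT_inner (f : Y → ℝ) (φ ψ : Y → F) (x : Y) :
    ⟪fadT f φ x, ψ x⟫_ℂ = ⟪φ x, fadT f ψ x⟫_ℂ := by
  simp only [fadT, inner_smul_left, inner_smul_right, Complex.conj_ofReal]

theorem fadT_T (f f' : Y → ℝ) (φ : Y → F) :
    fadT f (fadT f' φ) = fadT (fun x => f x + f' x) φ := by
  funext x
  simp only [fadT, smul_smul, Real.exp_add, Complex.ofReal_mul]

theorem fadT_zero (φ : Y → F) : fadT (fun _ => 0) φ = φ := by
  funext x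
  simp [fadT]

theorem fadT_DS {𝒮 : Syms Y F} {f : Y → ℝ} (hf : ContDiff ℝ ∞ f) (hi : InvS 𝒮 f) {φ : Y → F}
    (h : DS 𝒮 φ) : DS 𝒮 (fadT f φ) :=
  h.smul hf.exp fun p hp x => by rw [hi p hp x]

theorem fad_inv_neg {𝒮 : Syms Y F} {f : Y → ℝ} (hi : InvS 𝒮 f) : InvS 𝒮 fun x => -f x :=
  fun p hp x => congrArg Neg.neg (hi p hp x)

/-- the standing hypotheses -/
structure fadH (C : Cl Θ F) (c₁ c₂ : Y →ₗ[ℝ] Θ) (w₁ w₂ : Y → Θ) (𝒮 : Syms Y F) : Prop where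
  hw₁ : ContDiff ℝ ∞ w₁
  hw₂ : ContDiff ℝ ∞ w₂
  ok : SymOK 𝒮
  hC₁ : Compat C c₁ w₁ 𝒮
  hC₂ : Compat C c₂ w₂ 𝒮
  hsq : ∀ φ, DS 𝒮 φ → ∀ x, dirac C c₁ w₁ (dirac C c₁ w₁ φ) x = dirac C c₂ w₂ (dirac C c₂ w₂ φ) x
  hac : ∀ φ, DS 𝒮 φ → ∀ x,
    dirac C c₁ w₁ (dirac C c₂ w₂ φ) x + dirac C c₂ w₂ (dirac C c₁ w₁ φ) x = 0

/-- `Q₁ + s Q₂` -/
def fadQ (C : Cl Θ F) (c₁ c₂ : Y →ₗ[ℝ] Θ) (w₁ w₂ : Y → Θ) (s : ℂ) (φ : Y → F) : Y → F :=
  dirac C c₁ w₁ φ + s • dirac C c₂ w₂ φ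

/-- orthogonality to the range of `Q₁ + s Q₂` -/
def fadP (C : Cl Θ F) (c₁ c₂ : Y →ₗ[ℝ] Θ) (w₁ w₂ : Y → Θ) (𝒮 : Syms Y F) (s : ℂ) (χ : Y → F) :
    Prop := ∀ φ, DS 𝒮 φ → ∫ x, ⟪χ x, fadQ C c₁ c₂ w₁ w₂ s φ x⟫_ℂ = 0

namespace fadH

variable {C : Cl Θ F} {c₁ c₂ : Y →ₗ[ℝ] Θ} {w₁ w₂ : Y → Θ} {𝒮 : Syms Y F}
  (H : fadH C c₁ c₂ w₁ w₂ 𝒮)
include H

theorem ds (s : ℂ) {φ : Y → F} (h : DS 𝒮 φ) : DS 𝒮 (fadQ C c₁ c₂ w₁ w₂ s φ) :=
  (h.dirac H.hw₁ H.ok H.hC₁).add ((h.dirac H.hw₂ H.ok H.hC₂).csmul s)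

theorem adj (s : ℂ) {φ ψ : Y → F} (h : DS 𝒮 φ) (h' : DS 𝒮 ψ) :
    ∫ x, ⟪φ x, fadQ C c₁ c₂ w₁ w₂ s ψ x⟫_ℂ =
      ∫ x, ⟪fadQ C c₁ c₂ w₁ w₂ (starRingEnd ℂ s) φ x, ψ x⟫_ℂ := by
  have a1 := (h.dirac H.hw₁ H.ok H.hC₁).hs.1
  have a2 := (h.dirac H.hw₂ H.ok H.hC₂).hs.1
  have b1 := (h'.dirac H.hw₁ H.ok H.hC₁).hs.1
  have b2 := (h'.dirac H.hw₂ H.ok H.hC₂).hs.1
  simp only [fadQ, Pi.add_apply, Pi.smul_apply, inner_add_left, inner_add_right, inner_smul_left,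
    inner_smul_right, Complex.conj_conj]
  rw [integral_add (fad_int h.hs.1 b1) ((fad_int h.hs.1 b2).const_mul s),
    integral_add (fad_int a1 h'.hs.1) ((fad_int a2 h'.hs.1).const_mul s),
    integral_const_mul, integral_const_mul,
    dirac_symm C c₁ H.hw₁.continuous (h.1.1.of_le (by simp)) (h'.1.1.of_le (by simp)) (Or.inl h.1.2),
    dirac_symm C c₂ H.hw₂.continuous (h.1.1.of_le (by simp)) (h'.1.1.of_le (by simp)) (Or.inl h.1.2)]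

theorem nil {s : ℂ} (hs : s * s = -1) {φ : Y → F} (h : DS 𝒮 φ) (x : Y) :
    fadQ C c₁ c₂ w₁ w₂ s (fadQ C c₁ c₂ w₁ w₂ s φ) x = 0 := by
  have a1 := (h.dirac H.hw₁ H.ok H.hC₁).1.1.differentiable (by simp) x
  have a2 := ((h.dirac H.hw₂ H.ok H.hC₂).csmul s).1.1.differentiable (by simp) x
  have e1 := H.hsq φ h x
  have e2 := eq_neg_of_add_eq_zero_left (H.hac φ h x)
  show dirac C c₁ w₁ (dirac C c₁ w₁ φ + s • dirac C c₂ w₂ φ) x +
    s • dirac C c₂ w₂ (dirac C c₁ w₁ φ + s • dirac C c₂ w₂ φ) x = 0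
  rw [dirac_add C c₁ w₁ a1 a2, dirac_add C c₂ w₂ a1 a2, dirac_csmul, dirac_csmul, e1, e2, smul_add,
    smul_smul, hs]
  simp

theorem orth {φ ψ : Y → F} (h : DS 𝒮 φ) (h' : DS 𝒮 ψ) :
    ∫ x, ⟪fadQ C c₁ c₂ w₁ w₂ (-Complex.I) φ x, fadQ C c₁ c₂ w₁ w₂ Complex.I ψ x⟫_ℂ = 0 := by
  rw [H.adj _ (H.ds _ h) h', Complex.conj_I]
  simp only [H.nil (s := -Complex.I) (by simp) h, inner_zero_left, integral_zero]

omit H in
theorem sum {g : Y → ℝ} (hg : ContDiff ℝ ∞ g) {φ : Y → F} (h : DS 𝒮 φ) :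
    fadT (fun x => -g x) (fadQ C c₁ c₂ w₁ w₂ Complex.I (fadT g φ)) +
      fadT g (fadQ C c₁ c₂ w₁ w₂ (-Complex.I) (fadT (fun x => -g x) φ)) =
      (2 : ℂ) • dirac C c₁ (fun x => w₁ x + c₂ (gradient g x)) φ := by
  funext x
  have hφ := h.1.1.differentiable (by simp) x
  have d1 := hg.exp.differentiable (by simp) x
  have d2 := hg.neg.exp.differentiable (by simp) x
  have e : ∀ (c : Y →ₗ[ℝ] Θ) (w : Y → Θ), (Real.exp (-g x) : ℂ) • dirac C c w (fadT g φ) x =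
      dirac C c w φ x - Complex.I • C.θ (c (gradient g x)) (φ x) := fun c w => by
    unfold fadT
    rw [dirac_smul C c w d1 hφ, fad_grad_exp hg, map_smul, C.θ_smul, smul_sub, smul_smul,
      smul_apply, smul_comm Complex.I, smul_smul, ← Complex.ofReal_mul, ← Real.exp_add]
    simp
  have e' : ∀ (c : Y →ₗ[ℝ] Θ) (w : Y → Θ),
      (Real.exp (g x) : ℂ) • dirac C c w (fadT (fun x => -g x) φ) x =
      dirac C c w φ x + Complex.I • C.θ (c (gradient g x)) (φ x) := fun c w => by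
    unfold fadT
    rw [dirac_smul C c w d2 hφ, fad_grad_exp hg.neg, fad_grad_neg, map_smul, C.θ_smul, smul_sub,
      smul_smul, smul_apply, smul_comm Complex.I, smul_smul, ← Complex.ofReal_mul, ← Real.exp_add]
    simp
  show (Real.exp (-g x) : ℂ) • (dirac C c₁ w₁ (fadT g φ) x + Complex.I • dirac C c₂ w₂ (fadT g φ) x) +
    (Real.exp (g x) : ℂ) • (dirac C c₁ w₁ (fadT (fun x => -g x) φ) x +
      (-Complex.I) • dirac C c₂ w₂ (fadT (fun x => -g x) φ) x) =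
      (2 : ℂ) • dirac C c₁ (fun x => w₁ x + c₂ (gradient g x)) φ x
  rw [smul_add, smul_add, smul_comm _ Complex.I, smul_comm _ (-Complex.I), e, e, e', e',
    dirac_add_pot, smul_sub, smul_add, smul_smul, smul_smul]
  simp only [Complex.I_mul_I, neg_mul, neg_neg, one_smul, neg_smul, two_smul]
  abel

theorem wk_of {g : Y → ℝ} (hg : ContDiff ℝ ∞ g) (hi : InvS 𝒮 g) {Ψ : Y → F} (hΨ : HS 𝒮 Ψ)
    (h1 : fadP C c₁ c₂ w₁ w₂ 𝒮 Complex.I (fadT (fun x => -g x) Ψ))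
    (h2 : fadP C c₁ c₂ w₁ w₂ 𝒮 (-Complex.I) (fadT g Ψ)) :
    Ψ ∈ WK 𝒮 (dirac C c₁ fun x => w₁ x + c₂ (gradient g x)) := by
  refine ⟨hΨ, fun φ hφ => ?_⟩
  have a := fadT_DS hg hi hφ
  have b := fadT_DS hg.neg (fad_inv_neg hi) hφ
  have a' := (fadT_DS hg.neg (fad_inv_neg hi) (H.ds Complex.I a)).hs.1
  have b' := (fadT_DS hg hi (H.ds (-Complex.I) b)).hs.1
  have e1 := h1 _ a
  have e2 := h2 _ b
  simp only [fadT_inner] at e1 e2
  have e3 := integral_add (fad_int hΨ.1 a') (fad_int hΨ.1 b')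
  rw [e1, e2, add_zero] at e3
  simp only [← inner_add_right] at e3
  have e4 : ∀ x, fadT (fun x => -g x) (fadQ C c₁ c₂ w₁ w₂ Complex.I (fadT g φ)) x +
      fadT g (fadQ C c₁ c₂ w₁ w₂ (-Complex.I) (fadT (fun x => -g x) φ)) x =
      (2 : ℂ) • dirac C c₁ (fun x => w₁ x + c₂ (gradient g x)) φ x := fun x =>
    congrFun (sum hg hφ) x
  simp only [e4, inner_smul_right, integral_const_mul] at e3
  simpa using e3

theorem of_wk {g : Y → ℝ} (hg : ContDiff ℝ ∞ g) (hi : InvS 𝒮 g) {Ψ : Y → F}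
    (hΨ : Ψ ∈ WK 𝒮 (dirac C c₁ fun x => w₁ x + c₂ (gradient g x))) :
    fadP C c₁ c₂ w₁ w₂ 𝒮 Complex.I (fadT (fun x => -g x) Ψ) ∧
      fadP C c₁ c₂ w₁ w₂ 𝒮 (-Complex.I) (fadT g Ψ) := by
  have hw : ContDiff ℝ ∞ fun x => w₁ x + c₂ (gradient g x) :=
    H.hw₁.add ((LinearMap.toContinuousLinearMap c₂).contDiff.comp (fad_grad_sm hg))
  have hC : Compat C c₁ (fun x => w₁ x + c₂ (gradient g x)) 𝒮 := fun p hp =>
    ⟨(H.hC₁ p hp).1, fun x => by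
      rw [map_add, map_add, mul_add, add_mul, (H.hC₁ p hp).2, (H.hC₂ p hp).1,
        fad_grad_inv hg (H.ok p hp).1 (hi p hp)]⟩
  rw [wk_eq_sk C c₁ hw H.ok hC] at hΨ
  obtain ⟨hΨ, φ, hφ, t1, t2⟩ := hΨ
  have hi' := fad_inv_neg hi
  have a := fun n => fadT_DS hg hi (hφ n)
  have b := fun n => fadT_DS hg.neg hi' (hφ n)
  have a' := fun n => (fadT_DS hg.neg hi' (H.ds Complex.I (a n))).hs.1
  have b' := fun n => (fadT_DS hg hi (H.ds (-Complex.I) (b n))).hs.1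
  have q := fun n => ((hφ n).dirac hw H.ok hC).hs.1
  have T1 := (Lp.tendsto_Lp_iff_tendsto_eLpNorm'' φ (fun n => (hφ n).hs.1) Ψ hΨ).2 t1
  have T2 := (Lp.tendsto_Lp_iff_tendsto_eLpNorm'' _ q 0 MemLp.zero).2 (by simpa using t2)
  rw [MemLp.toLp_zero, tendsto_zero_iff_norm_tendsto_zero] at T2
  have T3 := T2.const_mul 2
  rw [mul_zero] at T3
  have key : ∀ n, ‖(a' n).toLp _‖ ≤ 2 * ‖(q n).toLp _‖ ∧ ‖(b' n).toLp _‖ ≤ 2 * ‖(q n).toLp _‖ := by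
    intro n
    have o : ⟪(b' n).toLp _, (a' n).toLp _⟫_ℂ = 0 := by
      rw [fad_inner]
      simp only [fadT_inner, fadT_T, add_neg_cancel, neg_add_cancel, fadT_zero]
      exact H.orth (b n) (a n)
    have s : (b' n).toLp _ + (a' n).toLp _ = (2 : ℂ) • (q n).toLp _ := by
      rw [add_comm, ← MemLp.toLp_add, ← MemLp.toLp_const_smul]
      exact MemLp.toLp_congr _ _ (by rw [sum hg (hφ n)])
    have p := norm_add_sq_eq_norm_sq_add_norm_sq_of_inner_eq_zero _ _ o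
    rw [s, norm_smul, Complex.norm_ofNat] at p
    constructor
    · exact (mul_self_le_mul_self_iff (norm_nonneg _) (by positivity)).2
        (by linarith [mul_self_nonneg ‖(b' n).toLp _‖])
    · exact (mul_self_le_mul_self_iff (norm_nonneg _) (by positivity)).2
        (by linarith [mul_self_nonneg ‖(a' n).toLp _‖])
  have TA : Tendsto (fun n => (a' n).toLp _) atTop (𝓝 0) :=
    squeeze_zero_norm (fun n => (key n).1) T3
  have TB : Tendsto (fun n => (b' n).toLp _) atTop (𝓝 0) :=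
    squeeze_zero_norm (fun n => (key n).2) T3
  constructor
  · intro ψ hψ
    have m1 := (fadT_DS hg.neg hi' (H.ds Complex.I hψ)).hs.1
    have m2 := (fadT_DS hg.neg hi' hψ).hs.1
    have L1 := T1.inner (𝕜 := ℂ) (tendsto_const_nhds (x := m1.toLp _))
    have L2 := TB.inner (𝕜 := ℂ) (tendsto_const_nhds (x := m2.toLp _))
    rw [inner_zero_left] at L2
    simp only [fadT_inner]
    rw [← fad_inner hΨ m1]
    refine tendsto_nhds_unique L1 (L2.congr fun n => ?_)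
    rw [fad_inner, fad_inner]
    simp only [fadT_inner, fadT_T, add_neg_cancel, neg_add_cancel, fadT_zero]
    rw [← Complex.conj_I, ← H.adj _ (b n) hψ]
    simp only [fadT_inner]
  · intro ψ hψ
    have m1 := (fadT_DS hg hi (H.ds (-Complex.I) hψ)).hs.1
    have m2 := (fadT_DS hg hi hψ).hs.1
    have L1 := T1.inner (𝕜 := ℂ) (tendsto_const_nhds (x := m1.toLp _))
    have L2 := TA.inner (𝕜 := ℂ) (tendsto_const_nhds (x := m2.toLp _))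
    rw [inner_zero_left] at L2
    simp only [fadT_inner]
    rw [← fad_inner hΨ m1]
    refine tendsto_nhds_unique L1 (L2.congr fun n => ?_)
    rw [fad_inner, fad_inner]
    simp only [fadT_inner, fadT_T, add_neg_cancel, neg_add_cancel, fadT_zero]
    have e : Complex.I = starRingEnd ℂ (-Complex.I) := by simp
    conv_lhs => rw [e]
    rw [← H.adj _ (a n) hψ]
    simp only [fadT_inner]

theorem key {g h : Y → ℝ} (hg : ContDiff ℝ ∞ g) (hh : ContDiff ℝ ∞ h) (hgi : InvS 𝒮 g)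
    (hhi : InvS 𝒮 h) {ψ : Y → F} (hψ : ψ ∈ WK 𝒮 (dirac C c₁ fun x => w₁ x + c₂ (gradient g x)))
    (hm : MemLp (fadT (fun x => -h x) ψ) 2 volume) :
    ∃ z ∈ WK 𝒮 (dirac C c₁ fun x => w₁ x + c₂ (gradient (fun y => g y + h y) x)),
      ∀ χ ∈ WK 𝒮 (dirac C c₁ fun x => w₁ x + c₂ (gradient g x)), MemLp (fadT h χ) 2 volume →
        ∫ x, ⟪χ x, ψ x⟫_ℂ = ∫ x, ⟪fadT h χ x, z x⟫_ℂ := by
  have hg' : ContDiff ℝ ∞ fun y => g y + h y := hg.add hh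
  have hi' : InvS 𝒮 fun y => g y + h y := fun p hp x => congrArg₂ (· + ·) (hgi p hp x) (hhi p hp x)
  have hs : HS 𝒮 (fadT (fun x => -h x) ψ) := ⟨hm, fun p hp => by
    filter_upwards [hψ.1.2 p hp] with x hx
    simp only [fadT, hx, hhi p hp x, map_smul]⟩
  obtain ⟨z, hz, z1, z2⟩ := fad_dec H.ok
    (G := {f | ∃ φ, DS 𝒮 φ ∧ f = fadT (fun x => -(g x + h x)) (fadQ C c₁ c₂ w₁ w₂ Complex.I φ)})
    (by
      rintro _ ⟨φ, hφ, rfl⟩
      exact (fadT_DS hg'.neg (fad_inv_neg hi') (H.ds _ hφ)).hs) hs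
  refine ⟨z, H.wk_of hg' hi' hz (fun φ hφ => ?_) fun φ hφ => ?_, fun χ hχ hχ' => ?_⟩
  · simp only [fadT_inner]
    exact z1 _ ⟨φ, hφ, rfl⟩
  · simp only [fadT_inner]
    apply fad_symm
    rw [← z2 _ (fadT_DS hg' hi' (H.ds _ hφ)).hs.1]
    · apply fad_symm
      have := (H.of_wk hg hgi hψ).2 φ hφ
      simp only [fadT_inner, fadT_T] at this ⊢
      simpa using this
    · rintro _ ⟨φ', hφ', rfl⟩
      simp only [fadT_inner, fadT_T, add_neg_cancel, neg_add_cancel, fadT_zero]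
      exact H.orth hφ hφ'
  · rw [← z2 _ hχ']
    · simp only [fadT_inner, fadT_T, add_neg_cancel, neg_add_cancel, fadT_zero]
    · rintro _ ⟨φ, hφ, rfl⟩
      have := (H.of_wk hg hgi hχ).1 φ hφ
      simp only [fadT_inner, fadT_T] at this ⊢
      simpa using this

end fadH

theorem fad_zero {f : Y → F} (hf : MemLp f 2 volume) (h : ∫ x, ⟪f x, f x⟫_ℂ = 0) :
    f =ᵐ[volume] 0 := by
  rw [← fad_inner hf hf, inner_self_eq_zero] at h
  have := hf.coeFn_toLp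
  rw [h] at this
  exact this.symm.trans (Lp.coeFn_zero _ _ _)

/-- Porrati–Rozenberg: for a nilpotent `𝒬 = Q₁ + i Q₂` and `Q^g = Q₁ + θ(c₂ ∇g)`, the kernel can
only grow from `g` to `g + h` when `e^{±h}` keeps the zero modes of `Q^g` square integrable. -/
theorem porrati_rozenberg (C : Cl Θ F) (c₁ c₂ : Y →ₗ[ℝ] Θ) {w₁ w₂ : Y → Θ}
    (hw₁ : ContDiff ℝ ∞ w₁) (hw₂ : ContDiff ℝ ∞ w₂) {𝒮 : Syms Y F} (h𝒮 : SymOK 𝒮)
    (hC₁ : Compat C c₁ w₁ 𝒮) (hC₂ : Compat C c₂ w₂ 𝒮)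
    (hsq : ∀ φ, DS 𝒮 φ → ∀ x, dirac C c₁ w₁ (dirac C c₁ w₁ φ) x = dirac C c₂ w₂ (dirac C c₂ w₂ φ) x)
    (hac : ∀ φ, DS 𝒮 φ → ∀ x,
      dirac C c₁ w₁ (dirac C c₂ w₂ φ) x + dirac C c₂ w₂ (dirac C c₁ w₁ φ) x = 0)
    {g h : Y → ℝ} (hg : ContDiff ℝ ∞ g) (hh : ContDiff ℝ ∞ h) (hgi : InvS 𝒮 g) (hhi : InvS 𝒮 h)
    (hdec : ∀ Ψ ∈ WK 𝒮 (dirac C c₁ fun x => w₁ x + c₂ (gradient g x)),
      MemLp (fun x => (Real.exp (h x) : ℂ) • Ψ x) 2 volume ∧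
      MemLp (fun x => (Real.exp (-h x) : ℂ) • Ψ x) 2 volume) :
    (NonTriv (WK 𝒮 (dirac C c₁ fun x => w₁ x + c₂ (gradient g x))) →
      NonTriv (WK 𝒮 (dirac C c₁ fun x => w₁ x + c₂ (gradient (fun y => g y + h y) x)))) ∧
    (AtMostOne (WK 𝒮 (dirac C c₁ fun x => w₁ x + c₂ (gradient (fun y => g y + h y) x))) →
      AtMostOne (WK 𝒮 (dirac C c₁ fun x => w₁ x + c₂ (gradient g x)))) := by
  have H : fadH C c₁ c₂ w₁ w₂ 𝒮 := ⟨hw₁, hw₂, h𝒮, hC₁, hC₂, hsq, hac⟩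
  constructor
  · rintro ⟨ψ, hψ, hne⟩
    obtain ⟨z, hz, hz'⟩ := H.key hg hh hgi hhi hψ (hdec ψ hψ).2
    refine ⟨z, hz, fun h0 => hne (fad_zero hψ.1.1 ?_)⟩
    rw [hz' ψ hψ (hdec ψ hψ).1]
    refine integral_eq_zero_of_ae ?_
    filter_upwards [h0] with x hx
    simp [hx]
  · intro h1 ψ₁ hψ₁ ψ₂ hψ₂
    obtain ⟨z₁, hz₁, e₁⟩ := H.key hg hh hgi hhi hψ₁ (hdec ψ₁ hψ₁).2
    obtain ⟨z₂, hz₂, e₂⟩ := H.key hg hh hgi hhi hψ₂ (hdec ψ₂ hψ₂).2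
    obtain ⟨a, b, hab, h0⟩ := h1 z₁ hz₁ z₂ hz₂
    have m : MemLp (a • ψ₁ + b • ψ₂) 2 volume := (hψ₁.1.1.const_smul a).add (hψ₂.1.1.const_smul b)
    have k : ∀ χ ∈ WK 𝒮 (dirac C c₁ fun x => w₁ x + c₂ (gradient g x)),
        ∫ x, ⟪χ x, (a • ψ₁ + b • ψ₂) x⟫_ℂ = 0 := fun χ hχ => by
      have m' : MemLp (fadT h χ) 2 volume := (hdec χ hχ).1
      simp only [Pi.add_apply, Pi.smul_apply, inner_add_right, inner_smul_right]
      rw [integral_add ((fad_int hχ.1.1 hψ₁.1.1).const_mul a) ((fad_int hχ.1.1 hψ₂.1.1).const_mul b),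
        integral_const_mul, integral_const_mul, e₁ χ hχ m', e₂ χ hχ m', ← integral_const_mul,
        ← integral_const_mul,
        ← integral_add ((fad_int m' hz₁.1.1).const_mul a) ((fad_int m' hz₂.1.1).const_mul b)]
      refine integral_eq_zero_of_ae ?_
      filter_upwards [h0] with x hx
      have hx' : a • z₁ x + b • z₂ x = 0 := hx
      rw [← inner_smul_right, ← inner_smul_right, ← inner_add_right, hx', inner_zero_right]
      rfl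
    refine ⟨a, b, hab, fad_zero m ?_⟩
    have e : ∀ x, ⟪(a • ψ₁ + b • ψ₂) x, (a • ψ₁ + b • ψ₂) x⟫_ℂ =
        starRingEnd ℂ a * ⟪ψ₁ x, (a • ψ₁ + b • ψ₂) x⟫_ℂ +
          starRingEnd ℂ b * ⟪ψ₂ x, (a • ψ₁ + b • ψ₂) x⟫_ℂ := fun x => by
      rw [← inner_smul_left, ← inner_smul_left, ← inner_add_left]
      rfl
    simp only [e]
    rw [integral_add ((fad_int hψ₁.1.1 m).const_mul _) ((fad_int hψ₂.1.1 m).const_mul _),
      integral_const_mul, integral_const_mul, k _ hψ₁, k _ hψ₂]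
    simp

end Crest.Agent.R330

end
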