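import Crest.Agent.R330.FA.B

/-! # Row 330, FA/E (statements frozen; see `R330/Blueprint.lean`) -/

set_option autoImplicit false
set_option linter.unusedSectionVars false

noncomputable section

open MeasureTheory Filter Topology
open scoped InnerProductSpace ContDiff Matrix

namespace Crest.Agent.R330

variable {Y Θ F : Type} [NormedAddCommGroup Y] [InnerProductSpace ℝ Y] [FiniteDimensional ℝ Y]
  [MeasurableSpace Y] [BorelSpace Y]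
  [NormedAddCommGroup Θ] [InnerProductSpace ℝ Θ] [FiniteDimensional ℝ Θ]
  [NormedAddCommGroup F] [InnerProductSpace ℂ F] [FiniteDimensional ℂ F]

theorem fae_int_sq {f : Y → F} (hf : MemLp f 2 volume) : Integrable (fun x => ‖f x‖ ^ 2) :=
  (memLp_two_iff_integrable_sq_norm hf.1).1 hf

theorem fae_add_sq (a b : F) : ‖a + b‖ ^ 2 ≤ 2 * ‖a‖ ^ 2 + 2 * ‖b‖ ^ 2 := by
  have h := norm_add_le a b
  have h2 : ‖a + b‖ ^ 2 ≤ (‖a‖ + ‖b‖) ^ 2 := pow_le_pow_left₀ (norm_nonneg _) h 2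
  nlinarith [sq_nonneg (‖a‖ - ‖b‖)]

theorem fae_sub_sq (a b : F) : ‖a - b‖ ^ 2 ≤ 2 * ‖a‖ ^ 2 + 2 * ‖b‖ ^ 2 := by
  have := fae_add_sq a (-b)
  rwa [norm_neg, ← sub_eq_add_neg] at this

theorem fae_cs {t f : Y → F} (ht : MemLp t 2 volume) (hf : MemLp f 2 volume) :
    ‖∫ x, ⟪t x, f x⟫_ℂ‖ ^ 2 ≤ (∫ x, ‖t x‖ ^ 2) * ∫ x, ‖f x‖ ^ 2 := by
  have key : ∀ {g : Y → F} (hg : MemLp g 2 volume), ‖hg.toLp g‖ ^ 2 = ∫ x, ‖g x‖ ^ 2 := by
    intro g hg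
    have h1 : ⟪hg.toLp g, hg.toLp g⟫_ℂ = ∫ x, ((‖g x‖ ^ 2 : ℝ) : ℂ) := by
      rw [L2.inner_def]
      refine integral_congr_ae ?_
      filter_upwards [hg.coeFn_toLp] with x hx
      rw [hx, inner_self_eq_norm_sq_to_K]
      push_cast
      rfl
    rw [integral_complex_ofReal, inner_self_eq_norm_sq_to_K] at h1
    have h2 : (((‖hg.toLp g‖ ^ 2 : ℝ)) : ℂ) = ((∫ x, ‖g x‖ ^ 2 : ℝ) : ℂ) := by
      push_cast
      exact h1
    exact_mod_cast h2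
  have h1 : ⟪ht.toLp t, hf.toLp f⟫_ℂ = ∫ x, ⟪t x, f x⟫_ℂ := by
    rw [L2.inner_def]
    refine integral_congr_ae ?_
    filter_upwards [ht.coeFn_toLp, hf.coeFn_toLp] with x hx hy
    rw [hx, hy]
  rw [← h1, ← key ht, ← key hf, ← mul_pow]
  exact pow_le_pow_left₀ (norm_nonneg _) (norm_inner_le_norm _ _) 2

theorem fae_int_inner {t f : Y → F} (ht : MemLp t 2 volume) (hf : MemLp f 2 volume) :
    Integrable (fun x => ⟪t x, f x⟫_ℂ) := by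
  refine (L2.integrable_inner (𝕜 := ℂ) (ht.toLp t) (hf.toLp f)).congr ?_
  filter_upwards [ht.coeFn_toLp, hf.coeFn_toLp] with x hx hy
  rw [hx, hy]

/-- The real-integral form of `SK`. -/
theorem fae_sk (C : Cl Θ F) (c : Y →ₗ[ℝ] Θ) {w : Y → Θ} (hw : ContDiff ℝ ∞ w) {𝒮 : Syms Y F}
    {Ψ : Y → F} (hΨ : Ψ ∈ SK 𝒮 (dirac C c w)) :
    MemLp Ψ 2 volume ∧ ∃ φ : ℕ → Y → F, (∀ n, DS 𝒮 (φ n)) ∧
      Tendsto (fun n => ∫ x, ‖φ n x - Ψ x‖ ^ 2) atTop (𝓝 0) ∧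
      Tendsto (fun n => ∫ x, ‖dirac C c w (φ n) x‖ ^ 2) atTop (𝓝 0) := by
  obtain ⟨h2, φ, hφ, h1, h3⟩ := hΨ
  refine ⟨h2, φ, hφ, ?_, ?_⟩
  · exact (tendsto_eLpNorm_iff (φ := fun n => φ n - Ψ)
      fun n => (hφ n).1.memLp.sub h2).1 h1
  · exact (tendsto_eLpNorm_iff (φ := fun n => dirac C c w (φ n))
      fun n => ((hφ n).1.dirac C c hw).memLp).1 h3

theorem fae_core_int {φ : Y → F} (hφ : Core φ) {g : Y → ℝ} (hg : Continuous g) :
    Integrable (fun x => g x * ‖φ x‖ ^ 2) := by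
  refine Continuous.integrable_of_hasCompactSupport
    (hg.mul (hφ.1.continuous.norm.pow 2)) ?_
  refine HasCompactSupport.mul_left ?_
  refine hφ.2.norm.comp_left (g := fun s : ℝ => s ^ 2) ?_
  simp

/-- The one step estimate for a bounded weight. -/
theorem fae_step (C : Cl Θ F) (c : Y →ₗ[ℝ] Θ) (hc : ∀ v, ‖c v‖ = ‖v‖) {w : Y → Θ}
    (hw : ContDiff ℝ ∞ w) {𝒮 : Syms Y F} {W h : Y → ℝ} (hW : Continuous W) (B : ℝ)
    (hlow : ∀ ψ, DS 𝒮 ψ → ∫ x, (W x - B) * ‖ψ x‖ ^ 2 ≤ ∫ x, ‖dirac C c w ψ x‖ ^ 2)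
    (h0 : ∀ x, 0 ≤ h x) (hhW : ∀ x, h x ≤ W x)
    {χ : Y → ℝ} (hχ : ContDiff ℝ ∞ χ) (hχi : InvS 𝒮 χ) (hχ0 : ∀ x, 0 ≤ χ x)
    (hχh : ∀ x, χ x ≤ Real.exp (h x)) (A : ℝ) (hχA : ∀ x, χ x ≤ A)
    (hg : ∀ x, 2 * ‖gradient χ x‖ ^ 2 ≤ W x * χ x ^ 2) {φ : Y → F} (hφ : DS 𝒮 φ) :
    ∫ x, χ x ^ 2 * ‖φ x‖ ^ 2 ≤ 2 * A ^ 2 * (∫ x, ‖dirac C c w φ x‖ ^ 2) +
      (1 + |B|) * Real.exp (2 * |B| + 2) ^ 2 * ∫ x, ‖φ x‖ ^ 2 := by
  set M : ℝ := (1 + |B|) * Real.exp (2 * |B| + 2) ^ 2 with hM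
  have hψ := hφ.smul hχ hχi
  have h1 := hlow _ hψ
  have hχc := hχ.continuous
  have hQ := hφ.1.dirac C c hw
  have iQ := fae_int_sq hQ.memLp
  have iφ := fae_int_sq hφ.1.memLp
  have i1 : Integrable fun x => ((W x - B) * χ x ^ 2) * ‖φ x‖ ^ 2 :=
    fae_core_int hφ.1 (by fun_prop)
  have i2 : Integrable fun x => (W x / 2 * χ x ^ 2) * ‖φ x‖ ^ 2 :=
    fae_core_int hφ.1 (by fun_prop)
  have i3 : Integrable fun x => (χ x ^ 2) * ‖φ x‖ ^ 2 :=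
    fae_core_int hφ.1 (by fun_prop)
  have e1 : ∫ x, (W x - B) * ‖(χ x : ℂ) • φ x‖ ^ 2 = ∫ x, ((W x - B) * χ x ^ 2) * ‖φ x‖ ^ 2 := by
    refine integral_congr_ae (Eventually.of_forall fun x => ?_)
    simp only [norm_smul, Complex.norm_real, Real.norm_eq_abs, mul_pow, sq_abs]
    ring
  have e2 : ∫ x, ‖dirac C c w (fun y => (χ y : ℂ) • φ y) x‖ ^ 2 ≤
      ∫ x, (2 * A ^ 2 * ‖dirac C c w φ x‖ ^ 2 + (W x / 2 * χ x ^ 2) * ‖φ x‖ ^ 2) := by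
    refine integral_mono (fae_int_sq (hψ.1.dirac C c hw).memLp) ((iQ.const_mul _).add i2)
      fun x => ?_
    have hd := dirac_smul C c w (x := x) (hχ.differentiable (by simp) x)
      (hφ.1.1.differentiable (by simp) x)
    have hb := fae_sub_sq ((χ x : ℂ) • dirac C c w φ x)
      (Complex.I • C.θ (c (gradient χ x)) (φ x))
    simp only [hd]
    refine hb.trans ?_
    simp only [norm_smul, Complex.norm_real, Real.norm_eq_abs, mul_pow, sq_abs, Complex.norm_I,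
      one_mul, C.norm_θ_sq, hc]
    have a1 : χ x ^ 2 ≤ A ^ 2 := pow_le_pow_left₀ (hχ0 x) (hχA x) 2
    have a2 := mul_le_mul_of_nonneg_right a1 (sq_nonneg ‖dirac C c w φ x‖)
    have a3 := mul_le_mul_of_nonneg_right (hg x) (sq_nonneg ‖φ x‖)
    nlinarith
  rw [integral_add (iQ.const_mul _) i2, integral_const_mul] at e2
  have e3 : ∫ x, χ x ^ 2 * ‖φ x‖ ^ 2 ≤ ∫ x, (((W x - B) * χ x ^ 2) * ‖φ x‖ ^ 2 -
      (W x / 2 * χ x ^ 2) * ‖φ x‖ ^ 2 + M * ‖φ x‖ ^ 2) := by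
    refine integral_mono i3 ((i1.sub i2).add (iφ.const_mul _)) fun x => ?_
    have hM0 : 0 ≤ M := by positivity
    have key : χ x ^ 2 ≤ (W x - B) * χ x ^ 2 - W x / 2 * χ x ^ 2 + M := by
      by_cases hx : 2 * |B| + 2 ≤ W x
      · have := le_abs_self B
        nlinarith [sq_nonneg (χ x)]
      · have a1 : χ x ≤ Real.exp (2 * |B| + 2) :=
          (hχh x).trans (Real.exp_le_exp.2 (by linarith [hhW x]))
        have a2 : χ x ^ 2 ≤ Real.exp (2 * |B| + 2) ^ 2 := pow_le_pow_left₀ (hχ0 x) a1 2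
        have a3 := le_abs_self B
        have a4 : 0 ≤ W x := (h0 x).trans (hhW x)
        have a5 : (1 + |B|) * χ x ^ 2 ≤ M := mul_le_mul_of_nonneg_left a2 (by positivity)
        nlinarith [sq_nonneg (χ x), mul_nonneg a4 (sq_nonneg (χ x))]
    have := mul_le_mul_of_nonneg_right key (sq_nonneg ‖φ x‖)
    simp only
    nlinarith
  have i12 : Integrable fun x => ((W x - B) * χ x ^ 2) * ‖φ x‖ ^ 2 -
      (W x / 2 * χ x ^ 2) * ‖φ x‖ ^ 2 := i1.sub i2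
  rw [integral_add i12 (iφ.const_mul _), integral_sub i1 i2, integral_const_mul] at e3
  rw [e1] at h1
  linarith

/-- Passing to the limit in the approximating sequence. -/
theorem fae_lim {Ψ : Y → F} (hΨ : MemLp Ψ 2 volume) {φ : ℕ → Y → F} (hφ : ∀ n, Core (φ n))
    (h1 : Tendsto (fun n => ∫ x, ‖φ n x - Ψ x‖ ^ 2) atTop (𝓝 0)) {q : ℕ → ℝ}
    (hq : Tendsto q atTop (𝓝 0)) {χ : Y → ℝ} (hχ : Continuous χ) (hχ0 : ∀ x, 0 ≤ χ x) {A M : ℝ}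
    (hχA : ∀ x, χ x ≤ A) (hM : 0 ≤ M)
    (h : ∀ n, ∫ x, χ x ^ 2 * ‖φ n x‖ ^ 2 ≤ q n + M * ∫ x, ‖φ n x‖ ^ 2) :
    Integrable (fun x => χ x ^ 2 * ‖Ψ x‖ ^ 2) ∧
      ∫ x, χ x ^ 2 * ‖Ψ x‖ ^ 2 ≤ 4 * M * ∫ x, ‖Ψ x‖ ^ 2 := by
  have iΨ := fae_int_sq hΨ
  have a1 : ∀ x, χ x ^ 2 ≤ A ^ 2 := fun x => pow_le_pow_left₀ (hχ0 x) (hχA x) 2
  have i0 : Integrable (fun x => χ x ^ 2 * ‖Ψ x‖ ^ 2) := by
    refine (iΨ.const_mul (A ^ 2)).mono' ((hχ.pow 2).aestronglyMeasurable.mul iΨ.1)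
      (Eventually.of_forall fun x => ?_)
    rw [Real.norm_of_nonneg (by positivity)]
    exact mul_le_mul_of_nonneg_right (a1 x) (sq_nonneg _)
  refine ⟨i0, ?_⟩
  have hb : ∀ n, ∫ x, χ x ^ 2 * ‖Ψ x‖ ^ 2 ≤ 2 * q n + (4 * M + 2 * A ^ 2) *
      (∫ x, ‖φ n x - Ψ x‖ ^ 2) + 4 * M * ∫ x, ‖Ψ x‖ ^ 2 := by
    intro n
    have id : Integrable fun x => ‖φ n x - Ψ x‖ ^ 2 := fae_int_sq ((hφ n).memLp.sub hΨ)
    have i3 : Integrable fun x => (χ x ^ 2) * ‖φ n x‖ ^ 2 := fae_core_int (hφ n) (by fun_prop)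
    have e1 : ∫ x, χ x ^ 2 * ‖Ψ x‖ ^ 2 ≤
        ∫ x, (2 * (χ x ^ 2 * ‖φ n x‖ ^ 2) + 2 * A ^ 2 * ‖φ n x - Ψ x‖ ^ 2) := by
      refine integral_mono i0 ((i3.const_mul _).add (id.const_mul _)) fun x => ?_
      have b1 := fae_sub_sq (φ n x) (φ n x - Ψ x)
      rw [sub_sub_cancel] at b1
      have b2 := mul_le_mul_of_nonneg_left b1 (sq_nonneg (χ x))
      have b3 := mul_le_mul_of_nonneg_right (a1 x) (sq_nonneg ‖φ n x - Ψ x‖)
      simp only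
      nlinarith
    rw [integral_add (i3.const_mul _) (id.const_mul _), integral_const_mul,
      integral_const_mul] at e1
    have e2 : ∫ x, ‖φ n x‖ ^ 2 ≤ ∫ x, (2 * ‖φ n x - Ψ x‖ ^ 2 + 2 * ‖Ψ x‖ ^ 2) := by
      refine integral_mono (fae_int_sq (hφ n).memLp) ((id.const_mul _).add (iΨ.const_mul _))
        fun x => ?_
      have b1 := fae_add_sq (φ n x - Ψ x) (Ψ x)
      rw [sub_add_cancel] at b1
      exact b1
    rw [integral_add (id.const_mul _) (iΨ.const_mul _), integral_const_mul,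
      integral_const_mul] at e2
    have e3 := mul_le_mul_of_nonneg_left e2 hM
    have := h n
    nlinarith
  have ht : Tendsto (fun n => 2 * q n + (4 * M + 2 * A ^ 2) *
      (∫ x, ‖φ n x - Ψ x‖ ^ 2) + 4 * M * ∫ x, ‖Ψ x‖ ^ 2) atTop
      (𝓝 (2 * 0 + (4 * M + 2 * A ^ 2) * 0 + 4 * M * ∫ x, ‖Ψ x‖ ^ 2)) :=
    ((hq.const_mul 2).add (h1.const_mul _)).add tendsto_const_nhds
  have := ge_of_tendsto' ht hb
  linarith

theorem fae_grad {h : Y → ℝ} (hh : Differentiable ℝ h) {f : ℝ → ℝ} {f' : ℝ} (x : Y)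
    (hf : HasDerivAt f f' (h x)) : ‖gradient (fun y => f (h y)) x‖ = |f'| * ‖gradient h x‖ := by
  have h1 : HasFDerivAt (fun y => f (h y)) (f' • fderiv ℝ h x) x :=
    hf.comp_hasFDerivAt x (hh x).hasFDerivAt
  unfold gradient
  rw [h1.fderiv, map_smul, norm_smul, Real.norm_eq_abs]

/-- Agmon estimate. -/
theorem agmon (C : Cl Θ F) (c : Y →ₗ[ℝ] Θ) (hc : ∀ v, ‖c v‖ = ‖v‖) {w : Y → Θ}
    (hw : ContDiff ℝ ∞ w) {𝒮 : Syms Y F} {W h : Y → ℝ} (hW : Continuous W) (B : ℝ)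
    (hlow : ∀ ψ, DS 𝒮 ψ → ∫ x, (W x - B) * ‖ψ x‖ ^ 2 ≤ ∫ x, ‖dirac C c w ψ x‖ ^ 2)
    (hh : ContDiff ℝ ∞ h) (hhi : InvS 𝒮 h) (h0 : ∀ x, 0 ≤ h x) (hhW : ∀ x, h x ≤ W x)
    (hg : ∀ x, 2 * ‖gradient h x‖ ^ 2 ≤ W x) {Ψ : Y → F} (hΨ : Ψ ∈ SK 𝒮 (dirac C c w)) :
    MemLp (fun x => (Real.exp (h x) : ℂ) • Ψ x) 2 volume := by
  obtain ⟨h2, φ, hφ, h1, h3⟩ := fae_sk C c hw hΨ
  set M : ℝ := (1 + |B|) * Real.exp (2 * |B| + 2) ^ 2 with hM
  have hM0 : 0 ≤ M := by positivity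
  -- the bounded weights
  let χ : ℕ → Y → ℝ := fun k x => Real.exp (h x / (1 + h x / ((k : ℝ) + 1)))
  have hpos : ∀ (k : ℕ) x, 0 < 1 + h x / ((k : ℝ) + 1) := fun k x => by
    have := h0 x
    positivity
  have hge : ∀ (k : ℕ) x, 1 ≤ 1 + h x / ((k : ℝ) + 1) := fun k x => by
    have := h0 x
    have : 0 ≤ h x / ((k : ℝ) + 1) := by positivity
    linarith
  have hχs : ∀ k, ContDiff ℝ ∞ (χ k) := fun k =>
    Real.contDiff_exp.comp (hh.div (contDiff_const.add (hh.div_const _)) fun x => (hpos k x).ne')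
  have hχi : ∀ k, InvS 𝒮 (χ k) := fun k p hp x => by
    simp only [χ, hhi p hp x]
  have hχ0 : ∀ k x, 0 ≤ χ k x := fun k x => (Real.exp_pos _).le
  have hχh : ∀ k x, χ k x ≤ Real.exp (h x) := fun k x =>
    Real.exp_le_exp.2 (div_le_self (h0 x) (hge k x))
  have hχA : ∀ (k : ℕ) x, χ k x ≤ Real.exp ((k : ℝ) + 1) := fun k x => by
    refine Real.exp_le_exp.2 ?_
    rw [div_le_iff₀ (hpos k x)]
    have hk : (0 : ℝ) < (k : ℝ) + 1 := by positivity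
    have : ((k : ℝ) + 1) * (1 + h x / ((k : ℝ) + 1)) = (k : ℝ) + 1 + h x := by
      field_simp
    rw [this]
    linarith
  have hχg : ∀ (k : ℕ) x, 2 * ‖gradient (χ k) x‖ ^ 2 ≤ W x * χ k x ^ 2 := fun k x => by
    have hk : (0 : ℝ) < (k : ℝ) + 1 := by positivity
    have d1 : HasDerivAt (fun s : ℝ => 1 + s / ((k : ℝ) + 1)) (1 / ((k : ℝ) + 1)) (h x) :=
      ((hasDerivAt_id (h x)).div_const _).const_add 1
    have d2 := ((hasDerivAt_id (h x)).div d1 (hpos k x).ne').exp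
    have d3 := fae_grad (hh.differentiable (by simp)) x d2
    have d4 : (1 * (1 + h x / ((k : ℝ) + 1)) - id (h x) * (1 / ((k : ℝ) + 1))) /
        (1 + h x / ((k : ℝ) + 1)) ^ 2 = 1 / (1 + h x / ((k : ℝ) + 1)) ^ 2 := by
      congr 1
      simp only [id]
      ring
    rw [d4] at d3
    have d5 : ‖gradient (χ k) x‖ = χ k x * (1 / (1 + h x / ((k : ℝ) + 1)) ^ 2) *
        ‖gradient h x‖ := by
      have : 0 ≤ χ k x * (1 / (1 + h x / ((k : ℝ) + 1)) ^ 2) :=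
        mul_nonneg (hχ0 k x) (by positivity)
      rw [← abs_of_nonneg this]
      exact d3
    have d6 : 1 / (1 + h x / ((k : ℝ) + 1)) ^ 2 ≤ 1 := by
      rw [div_le_one (by have := hpos k x; positivity)]
      exact one_le_pow₀ (hge k x)
    have d7 : ‖gradient (χ k) x‖ ≤ χ k x * ‖gradient h x‖ := by
      rw [d5]
      refine mul_le_mul_of_nonneg_right ?_ (norm_nonneg _)
      exact mul_le_of_le_one_right (hχ0 k x) d6
    have d8 := pow_le_pow_left₀ (norm_nonneg _) d7 2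
    have d9 := mul_le_mul_of_nonneg_right (hg x) (sq_nonneg (χ k x))
    nlinarith
  have hk : ∀ k, Integrable (fun x => χ k x ^ 2 * ‖Ψ x‖ ^ 2) ∧
      ∫ x, χ k x ^ 2 * ‖Ψ x‖ ^ 2 ≤ 4 * M * ∫ x, ‖Ψ x‖ ^ 2 := fun k => by
    refine fae_lim h2 (fun n => (hφ n).1) h1
      (q := fun n => 2 * Real.exp ((k : ℝ) + 1) ^ 2 * ∫ x, ‖dirac C c w (φ n) x‖ ^ 2) ?_
      (hχs k).continuous (hχ0 k) (hχA k) hM0 fun n => ?_
    · simpa using h3.const_mul (2 * Real.exp ((k : ℝ) + 1) ^ 2)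
    · exact fae_step C c hc hw hW B hlow h0 hhW (hχs k) (hχi k) (hχ0 k) (hχh k) _ (hχA k)
        (hχg k) (hφ n)
  have hlim : ∀ x, Tendsto (fun k => χ k x ^ 2 * ‖Ψ x‖ ^ 2) atTop
      (𝓝 (Real.exp (h x) ^ 2 * ‖Ψ x‖ ^ 2)) := fun x => by
    refine Tendsto.mul_const _ (Tendsto.pow ?_ 2)
    refine (Real.continuous_exp.tendsto _).comp ?_
    have t1 : Tendsto (fun k : ℕ => h x / ((k : ℝ) + 1)) atTop (𝓝 0) :=
      tendsto_const_nhds.div_atTop (tendsto_natCast_atTop_atTop.atTop_add tendsto_const_nhds)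
    have t2 : Tendsto (fun k : ℕ => h x / (1 + h x / ((k : ℝ) + 1))) atTop (𝓝 (h x / (1 + 0))) :=
      tendsto_const_nhds.div (tendsto_const_nhds.add t1) (by norm_num)
    simpa using t2
  have hm : AEStronglyMeasurable (fun x => (Real.exp (h x) : ℂ) • Ψ x) volume := by
    refine AEStronglyMeasurable.smul ?_ h2.1
    have := hh.continuous
    exact (by fun_prop : Continuous fun x => (Real.exp (h x) : ℂ)).aestronglyMeasurable
  rw [memLp_two_iff_integrable_sq_norm hm]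
  refine ⟨hm.norm.pow 2, ?_⟩
  have e1 : ∀ x, ‖(Real.exp (h x) : ℂ) • Ψ x‖ ^ 2 = Real.exp (h x) ^ 2 * ‖Ψ x‖ ^ 2 := fun x => by
    simp only [norm_smul, Complex.norm_real, Real.norm_eq_abs, mul_pow, sq_abs]
  rw [hasFiniteIntegral_iff_ofReal (Eventually.of_forall fun x => by positivity)]
  simp only [e1]
  have e2 : ∀ x, ENNReal.ofReal (Real.exp (h x) ^ 2 * ‖Ψ x‖ ^ 2) =
      liminf (fun k => ENNReal.ofReal (χ k x ^ 2 * ‖Ψ x‖ ^ 2)) atTop := fun x =>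
    ((ENNReal.continuous_ofReal.tendsto _).comp (hlim x)).liminf_eq.symm
  simp only [e2]
  refine (lintegral_liminf_le' fun k => (hk k).1.1.aemeasurable.ennreal_ofReal).trans_lt ?_
  refine lt_of_le_of_lt (liminf_le_of_frequently_le' (x := ENNReal.ofReal (4 * M * ∫ x, ‖Ψ x‖ ^ 2))
    (Frequently.of_forall fun k => ?_)) ENNReal.ofReal_lt_top
  rw [← ofReal_integral_eq_lintegral_ofReal (hk k).1 (Eventually.of_forall fun x => by positivity)]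
  exact ENNReal.ofReal_le_ofReal (hk k).2

/-- A codimension one lower bound gives at most one zero mode. -/
theorem atMostOne_of_codim (C : Cl Θ F) (c : Y →ₗ[ℝ] Θ) {w : Y → Θ} (hw : ContDiff ℝ ∞ w)
    {𝒮 : Syms Y F} {t : Y → F} (ht : MemLp t 2 volume) {a b : ℝ} (ha : 0 < a)
    (hlow : ∀ ψ, DS 𝒮 ψ → a * ∫ x, ‖ψ x‖ ^ 2 ≤
      (∫ x, ‖dirac C c w ψ x‖ ^ 2) + b * ‖∫ x, ⟪t x, ψ x⟫_ℂ‖ ^ 2) :
    AtMostOne (SK 𝒮 (dirac C c w)) := by
  intro Ψ₁ hΨ₁ Ψ₂ hΨ₂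
  obtain ⟨m₁, φ₁, hφ₁, a₁, b₁⟩ := fae_sk C c hw hΨ₁
  obtain ⟨m₂, φ₂, hφ₂, a₂, b₂⟩ := fae_sk C c hw hΨ₂
  have key : ∀ p q : ℂ, p * (∫ x, ⟪t x, Ψ₁ x⟫_ℂ) + q * (∫ x, ⟪t x, Ψ₂ x⟫_ℂ) = 0 →
      (p • Ψ₁ + q • Ψ₂) =ᵐ[volume] 0 := by
    intro p q hpq
    set Ψ : Y → F := p • Ψ₁ + q • Ψ₂ with hΨ
    have m : MemLp Ψ 2 volume := (m₁.const_smul p).add (m₂.const_smul q)
    let φ : ℕ → Y → F := fun n => p • φ₁ n + q • φ₂ n
    have hφ : ∀ n, DS 𝒮 (φ n) := fun n => ((hφ₁ n).csmul p).add ((hφ₂ n).csmul q)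
    have two : ∀ {u v : ℕ → Y → F}, (∀ n, MemLp (u n) 2 volume) → (∀ n, MemLp (v n) 2 volume) →
        Tendsto (fun n => ∫ x, ‖u n x‖ ^ 2) atTop (𝓝 0) →
        Tendsto (fun n => ∫ x, ‖v n x‖ ^ 2) atTop (𝓝 0) →
        Tendsto (fun n => ∫ x, ‖p • u n x + q • v n x‖ ^ 2) atTop (𝓝 0) := by
      intro u v hu hv tu tv
      have tt : Tendsto (fun n => 2 * ‖p‖ ^ 2 * (∫ x, ‖u n x‖ ^ 2) +
          2 * ‖q‖ ^ 2 * ∫ x, ‖v n x‖ ^ 2) atTop (𝓝 0) := by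
        simpa using (tu.const_mul (2 * ‖p‖ ^ 2)).add (tv.const_mul (2 * ‖q‖ ^ 2))
      refine squeeze_zero (fun n => integral_nonneg fun x => by positivity) (fun n => ?_) tt
      rw [← integral_const_mul, ← integral_const_mul,
        ← integral_add ((fae_int_sq (hu n)).const_mul _) ((fae_int_sq (hv n)).const_mul _)]
      refine integral_mono (fae_int_sq (((hu n).const_smul p).add ((hv n).const_smul q)))
        (((fae_int_sq (hu n)).const_mul _).add ((fae_int_sq (hv n)).const_mul _)) fun x => ?_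
      refine (fae_add_sq _ _).trans (le_of_eq ?_)
      simp only [norm_smul, mul_pow]
      ring
    have A : Tendsto (fun n => ∫ x, ‖φ n x - Ψ x‖ ^ 2) atTop (𝓝 0) := by
      have := two (u := fun n => φ₁ n - Ψ₁) (v := fun n => φ₂ n - Ψ₂)
        (fun n => (hφ₁ n).1.memLp.sub m₁) (fun n => (hφ₂ n).1.memLp.sub m₂) a₁ a₂
      refine this.congr fun n => integral_congr_ae (Eventually.of_forall fun x => ?_)
      simp only [φ, hΨ, Pi.add_apply, Pi.smul_apply, Pi.sub_apply, smul_sub]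
      congr 2
      abel
    have Bq : Tendsto (fun n => ∫ x, ‖dirac C c w (φ n) x‖ ^ 2) atTop (𝓝 0) := by
      have := two (u := fun n => dirac C c w (φ₁ n)) (v := fun n => dirac C c w (φ₂ n))
        (fun n => ((hφ₁ n).1.dirac C c hw).memLp) (fun n => ((hφ₂ n).1.dirac C c hw).memLp) b₁ b₂
      refine this.congr fun n => integral_congr_ae (Eventually.of_forall fun x => ?_)
      simp only [φ]
      rw [dirac_add C c w (((hφ₁ n).csmul p).1.1.differentiable (by simp) x)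
        (((hφ₂ n).csmul q).1.1.differentiable (by simp) x), dirac_csmul, dirac_csmul]
    have z : ∫ x, ⟪t x, Ψ x⟫_ℂ = 0 := by
      rw [← hpq, ← integral_const_mul, ← integral_const_mul,
        ← integral_add ((fae_int_inner ht m₁).const_mul _) ((fae_int_inner ht m₂).const_mul _)]
      refine integral_congr_ae (Eventually.of_forall fun x => ?_)
      simp only [hΨ, Pi.add_apply, Pi.smul_apply, inner_add_right, inner_smul_right]
    have T : Tendsto (fun n => ‖∫ x, ⟪t x, φ n x⟫_ℂ‖ ^ 2) atTop (𝓝 0) := by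
      have tt : Tendsto (fun n => (∫ x, ‖t x‖ ^ 2) * ∫ x, ‖φ n x - Ψ x‖ ^ 2) atTop (𝓝 0) := by
        simpa using A.const_mul (∫ x, ‖t x‖ ^ 2)
      refine squeeze_zero (fun n => by positivity) (fun n => ?_) tt
      have e : ∫ x, ⟪t x, φ n x⟫_ℂ = ∫ x, ⟪t x, (φ n - Ψ) x⟫_ℂ := by
        simp only [Pi.sub_apply, inner_sub_right]
        rw [integral_sub (fae_int_inner ht (hφ n).1.memLp) (fae_int_inner ht m), z, sub_zero]
      rw [e]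
      exact fae_cs ht ((hφ n).1.memLp.sub m)
    have hb : ∀ n, a * ∫ x, ‖Ψ x‖ ^ 2 ≤ 2 * ((∫ x, ‖dirac C c w (φ n) x‖ ^ 2) +
        b * ‖∫ x, ⟪t x, φ n x⟫_ℂ‖ ^ 2) + 2 * a * ∫ x, ‖φ n x - Ψ x‖ ^ 2 := fun n => by
      have id : Integrable fun x => ‖φ n x - Ψ x‖ ^ 2 := fae_int_sq ((hφ n).1.memLp.sub m)
      have ip := fae_int_sq (hφ n).1.memLp
      have e1 : ∫ x, ‖Ψ x‖ ^ 2 ≤ ∫ x, (2 * ‖φ n x‖ ^ 2 + 2 * ‖φ n x - Ψ x‖ ^ 2) := by
        refine integral_mono (fae_int_sq m) ((ip.const_mul _).add (id.const_mul _)) fun x => ?_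
        have b1 := fae_sub_sq (φ n x) (φ n x - Ψ x)
        rw [sub_sub_cancel] at b1
        exact b1
      rw [integral_add (ip.const_mul _) (id.const_mul _), integral_const_mul,
        integral_const_mul] at e1
      have e2 := mul_le_mul_of_nonneg_left e1 ha.le
      have := hlow _ (hφ n)
      nlinarith
    have tt : Tendsto (fun n => 2 * ((∫ x, ‖dirac C c w (φ n) x‖ ^ 2) +
        b * ‖∫ x, ⟪t x, φ n x⟫_ℂ‖ ^ 2) + 2 * a * ∫ x, ‖φ n x - Ψ x‖ ^ 2) atTop (𝓝 0) := by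
      simpa using ((Bq.add (T.const_mul b)).const_mul 2).add (A.const_mul (2 * a))
    have h0 := ge_of_tendsto' tt hb
    have h1 : 0 ≤ ∫ x, ‖Ψ x‖ ^ 2 := integral_nonneg fun x => by positivity
    have h2 : ∫ x, ‖Ψ x‖ ^ 2 = 0 := by
      refine le_antisymm ?_ h1
      by_contra hc
      have := mul_pos ha (not_le.1 hc)
      linarith
    rw [integral_eq_zero_iff_of_nonneg (fun x => by positivity) (fae_int_sq m)] at h2
    filter_upwards [h2] with x hx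
    simpa using hx
  by_cases h1 : ∫ x, ⟪t x, Ψ₁ x⟫_ℂ = 0
  · exact ⟨1, 0, Or.inl one_ne_zero, key 1 0 (by simp [h1])⟩
  · exact ⟨-∫ x, ⟪t x, Ψ₂ x⟫_ℂ, ∫ x, ⟪t x, Ψ₁ x⟫_ℂ, Or.inr h1, key _ _ (by ring)⟩

end Crest.Agent.R330

end
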